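import Vale.Agent.P037.Final

/-! Blow-ups: the counterexamples exist for all large `n`. -/

open Finset

namespace Vale.Agent.P037

/-- the blow-up of `A`, padded with zeros -/
def blow {m : ℕ} (A : Matrix (Fin m) (Fin m) Bool) (n t : ℕ) : Matrix (Fin n) (Fin n) Bool :=
  fun i j => if h : (i : ℕ) / t < m ∧ (j : ℕ) / t < m then A ⟨i / t, h.1⟩ ⟨j / t, h.2⟩ else false

theorem blow_true {m n t : ℕ} {A : Matrix (Fin m) (Fin m) Bool} {i j : Fin n}
    (h : blow A n t i j = true) : (i : ℕ) / t < m ∧ (j : ℕ) / t < m := by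
  unfold blow at h
  by_contra hc
  rw [dif_neg hc] at h
  exact Bool.noConfusion h

theorem blow_eq {m n t : ℕ} {A : Matrix (Fin m) (Fin m) Bool} {i j : Fin n}
    (h1 : (i : ℕ) / t < m) (h2 : (j : ℕ) / t < m) :
    blow A n t i j = A ⟨i / t, h1⟩ ⟨j / t, h2⟩ := by
  unfold blow
  rw [dif_pos ⟨h1, h2⟩]

theorem H6_row (i : Fin 6) : ∃ j : Fin 6, H6 i j = true := by fin_cases i <;> first | exact ⟨1, by decide⟩ | exact ⟨2, by decide⟩
theorem H6_col (j : Fin 6) : ∃ i, H6 i j = true := by revert j; decide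
theorem H6_row_ne (i : Fin 5) : ∃ j, H6 i.castSucc j ≠ H6 i.succ j := by revert i; decide
theorem H6_col_ne (j : Fin 5) : ∃ i, H6 i j.castSucc ≠ H6 i j.succ := by revert j; decide

theorem copy_div {m n t : ℕ} {A : Matrix (Fin m) (Fin m) Bool} {r c : Fin 6 → Fin n}
    (h : IsCopy H6 (blow A n t) r c) :
    ∃ (hr : ∀ i, (r i : ℕ) / t < m) (hc : ∀ j, (c j : ℕ) / t < m),
      IsCopy H6 A (fun i => ⟨(r i : ℕ) / t, hr i⟩) (fun j => ⟨(c j : ℕ) / t, hc j⟩) := by
  obtain ⟨h1, h2, h3⟩ := h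
  have hr : ∀ i, (r i : ℕ) / t < m := by
    intro i
    obtain ⟨j, hj⟩ := H6_row i
    exact (blow_true ((h3 i j).trans hj)).1
  have hc : ∀ j, (c j : ℕ) / t < m := by
    intro j
    obtain ⟨i, hi⟩ := H6_col j
    exact (blow_true ((h3 i j).trans hi)).2
  refine ⟨hr, hc, ?_, ?_, ?_⟩
  · rw [Fin.strictMono_iff_lt_succ]
    intro i
    have hlt : (r i.castSucc : ℕ) < r i.succ := h1 i.castSucc_lt_succ
    have hle : (r i.castSucc : ℕ) / t ≤ (r i.succ : ℕ) / t := Nat.div_le_div_right hlt.le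
    rcases hle.lt_or_eq with h4 | h4
    · exact h4
    · exfalso
      obtain ⟨j, hj⟩ := H6_row_ne i
      apply hj
      rw [← h3, ← h3, blow_eq (hr _) (hc _), blow_eq (hr _) (hc _)]
      congr 1
      exact Fin.ext h4
  · rw [Fin.strictMono_iff_lt_succ]
    intro j
    have hlt : (c j.castSucc : ℕ) < c j.succ := h2 j.castSucc_lt_succ
    have hle : (c j.castSucc : ℕ) / t ≤ (c j.succ : ℕ) / t := Nat.div_le_div_right hlt.le
    rcases hle.lt_or_eq with h4 | h4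
    · exact h4
    · exfalso
      obtain ⟨i, hi⟩ := H6_col_ne j
      apply hi
      rw [← h3, ← h3, blow_eq (hr _) (hc _), blow_eq (hr _) (hc _)]
      congr 1
      exact Fin.ext h4
  · intro i j
    rw [← h3, blow_eq (hr _) (hc _)]

theorem numCopies_blow {m n t : ℕ} (ht : 0 < t) (A : Matrix (Fin m) (Fin m) Bool) :
    numCopies H6 (blow A n t) ≤ numCopies H6 A * t ^ 12 := by
  classical
  unfold numCopies
  have e : Nat.card ({p : (Fin 6 → Fin m) × (Fin 6 → Fin m) // IsCopy H6 A p.1 p.2} ×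
      ((Fin 6 → Fin t) × (Fin 6 → Fin t))) =
      Nat.card {p : (Fin 6 → Fin m) × (Fin 6 → Fin m) // IsCopy H6 A p.1 p.2} * t ^ 12 := by
    rw [Nat.card_prod, Nat.card_prod]
    simp only [Nat.card_eq_fintype_card, Fintype.card_pi, Fintype.card_fin, prod_const, card_univ]
    rw [← pow_add]
  rw [← e]
  let Φ : {p : (Fin 6 → Fin n) × (Fin 6 → Fin n) // IsCopy H6 (blow A n t) p.1 p.2} →
      {p : (Fin 6 → Fin m) × (Fin 6 → Fin m) // IsCopy H6 A p.1 p.2} ×
      ((Fin 6 → Fin t) × (Fin 6 → Fin t)) := fun p =>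
    (⟨(fun i => ⟨(p.1.1 i : ℕ) / t, (copy_div p.2).choose i⟩,
        fun j => ⟨(p.1.2 j : ℕ) / t, (copy_div p.2).choose_spec.choose j⟩),
        (copy_div p.2).choose_spec.choose_spec⟩,
      (fun i => ⟨(p.1.1 i : ℕ) % t, Nat.mod_lt _ ht⟩, fun j => ⟨(p.1.2 j : ℕ) % t, Nat.mod_lt _ ht⟩))
  have hΦ : Function.Injective Φ := by
    rintro ⟨⟨r, c⟩, hp⟩ ⟨⟨r', c'⟩, hp'⟩ heq
    simp only [Φ, Prod.mk.injEq, Subtype.mk.injEq] at heq
    obtain ⟨⟨e1, e2⟩, e3, e4⟩ := heq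
    have a1 : r = r' := by
      funext i
      have x1 := congrFun e1 i
      have x3 := congrFun e3 i
      simp only [Fin.mk.injEq] at x1 x3
      apply Fin.ext
      rw [← Nat.div_add_mod (r i : ℕ) t, x1, x3, Nat.div_add_mod]
    have a2 : c = c' := by
      funext i
      have x1 := congrFun e2 i
      have x3 := congrFun e4 i
      simp only [Fin.mk.injEq] at x1 x3
      apply Fin.ext
      rw [← Nat.div_add_mod (c i : ℕ) t, x1, x3, Nat.div_add_mod]
    subst a1 a2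
    rfl
  exact Nat.card_le_card_of_injective Φ hΦ

/-- the submatrix of the cells with offsets `a`, `b` -/
theorem free_sub {m n t : ℕ} {B : Matrix (Fin n) (Fin n) Bool}
    (hB : IsFree H6 B) (a b : Fin t) (f : Fin t → Fin m → Fin n)
    (hf : ∀ a i, (f a i : ℕ) = i * t + a) :
    IsFree H6 (fun i j : Fin m => B (f a i) (f b j)) := by
  have hmono : ∀ a, StrictMono (f a) := by
    intro a i j hij
    rw [Fin.lt_def, hf, hf]
    have h1 : (i : ℕ) + 1 ≤ j := hij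
    have h2 : ((i : ℕ) + 1) * t ≤ j * t := Nat.mul_le_mul_right _ h1
    have := a.2
    nlinarith
  unfold IsFree numCopies at *
  rw [Nat.card_eq_zero] at *
  rcases hB with hB | hB
  · left
    refine ⟨fun p => hB.false ⟨(f a ∘ p.1.1, f b ∘ p.1.2), ?_⟩⟩
    exact ⟨(hmono a).comp p.2.1, (hmono b).comp p.2.2.1, fun i j => p.2.2.2 i j⟩
  · exact absurd hB (by
      rw [not_infinite_iff_finite]
      infer_instance)

theorem diff_blow {m n t D : ℕ} (ht : 0 < t) (hn : m * t ≤ n) (A : Matrix (Fin m) (Fin m) Bool)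
    (hD : ∀ B, IsFree H6 B → D ≤ diffCount A B) (B : Matrix (Fin n) (Fin n) Bool)
    (hB : IsFree H6 B) : t * t * D ≤ diffCount (blow A n t) B := by
  classical
  have hlt : ∀ (a : Fin t) (i : Fin m), (i : ℕ) * t + a < n := by
    intro a i
    have h1 : (i : ℕ) + 1 ≤ m := i.2
    have h2 : ((i : ℕ) + 1) * t ≤ m * t := Nat.mul_le_mul_right _ h1
    have := a.2
    nlinarith
  let f : Fin t → Fin m → Fin n := fun a i => ⟨i * t + a, hlt a i⟩
  have hdiv : ∀ a i, (f a i : ℕ) / t = i := by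
    intro a i
    simp only [f]
    rw [mul_comm, Nat.mul_add_div ht, Nat.div_eq_of_lt a.2, add_zero]
  have hmod : ∀ a i, (f a i : ℕ) % t = a := by
    intro a i
    simp only [f]
    rw [mul_comm, Nat.mul_add_mod, Nat.mod_eq_of_lt a.2]
  have hsub : ∀ a b, D ≤ diffCount A (fun i j : Fin m => B (f a i) (f b j)) := fun a b =>
    hD _ (free_sub hB a b f fun a i => rfl)
  have h1 : t * t * D ≤ ∑ ab : Fin t × Fin t, diffCount A (fun i j : Fin m => B (f ab.1 i) (f ab.2 j)) := by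
    calc t * t * D = ∑ _ab : Fin t × Fin t, D := by simp
      _ ≤ _ := sum_le_sum fun ab _ => hsub ab.1 ab.2
  refine h1.trans ?_
  unfold diffCount
  rw [← card_sigma]
  refine card_le_card_of_injOn (fun x => (f x.1.1 x.2.1, f x.1.2 x.2.2)) ?_ ?_
  · rintro ⟨⟨a, b⟩, i, j⟩ hx
    simp only [coe_sigma, Set.mem_sigma_iff, coe_filter, mem_univ, true_and, Set.mem_ofPred_eq,
      coe_univ, Set.mem_univ] at hx ⊢
    intro h
    apply hx
    rw [blow_eq (by rw [hdiv]; exact i.2) (by rw [hdiv]; exact j.2)] at h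
    rw [← h]
    congr 1
    · exact Fin.ext (hdiv a i).symm
    · exact Fin.ext (hdiv b j).symm
  · rintro ⟨⟨a, b⟩, i, j⟩ _ ⟨⟨a', b'⟩, i', j'⟩ _ h
    simp only [Prod.mk.injEq] at h
    obtain ⟨h1, h2⟩ := h
    have x1 : i = i' := Fin.ext (by rw [← hdiv a i, h1, hdiv])
    have x2 : j = j' := Fin.ext (by rw [← hdiv b j, h2, hdiv])
    have x3 : a = a' := Fin.ext (by rw [← hmod a i, h1, hmod])
    have x4 : b = b' := Fin.ext (by rw [← hmod b j, h2, hmod])
    subst x1 x2 x3 x4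
    rfl

theorem large (W : ℕ) (hW : 1 ≤ W) (n : ℕ) (hn : 9 * 2 ^ W * (2 * W + 2) ≤ n) :
    ∃ A : Matrix (Fin n) (Fin n) Bool,
      1 / (36 * ((W : ℝ) + 1)) ^ 2 ≤ distFree H6 A ∧
      (numCopies H6 A : ℝ) ≤ (1 / 2) ^ W * (n : ℝ) ^ 12 := by
  set m : ℕ := 9 * 2 ^ W * (2 * W + 2) with hm
  have hm0 : 0 < m := by rw [hm]; positivity
  set t : ℕ := n / m with htdef
  have ht : 0 < t := Nat.div_pos hn hm0
  have hmt : m * t ≤ n := Nat.mul_div_le n m
  have hlt : n < m * t + m := by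
    have := Nat.lt_mul_div_succ n hm0
    rw [Nat.mul_add, mul_one] at this
    exact this
  have hn2 : n ≤ 2 * (m * t) := by
    have : m ≤ m * t := Nat.le_mul_of_pos_right m ht
    omega
  have hn0 : (0 : ℝ) < n := by
    have : 0 < n := lt_of_lt_of_le hm0 hn
    exact_mod_cast this
  refine ⟨blow (AA W) n t, ?_, ?_⟩
  · have h1 := distFree_ge (A := blow (AA W) n t) (fun B hB =>
      diff_blow ht hmt (AA W) (far hW) B hB)
    refine le_trans ?_ h1
    rw [div_le_div_iff₀ (by positivity) (by positivity)]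
    have h2 : (n : ℝ) ≤ 2 * ((9 * 2 ^ W * (2 * W + 2)) * t) := by exact_mod_cast hn2
    push_cast
    have h3 : (n : ℝ) ^ 2 ≤ (2 * ((9 * 2 ^ W * (2 * W + 2)) * t)) ^ 2 := by
      gcongr
    calc 1 * (n : ℝ) ^ 2 ≤ (2 * ((9 * 2 ^ W * (2 * W + 2)) * t)) ^ 2 := by rw [one_mul]; exact h3
      _ = (t : ℝ) * t * (2 ^ W * 2 ^ W) * (36 * ((W : ℝ) + 1)) ^ 2 := by ring
  · have h1 := numCopies_blow (n := n) ht (AA W)
    have h2 := num_AA hW
    have h3 : (numCopies H6 (blow (AA W) n t) : ℝ) ≤ (numCopies H6 (AA W) : ℝ) * (t : ℝ) ^ 12 := by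
      exact_mod_cast h1
    have h4 : ((m : ℝ) * t) ^ 12 ≤ (n : ℝ) ^ 12 := by
      have : ((m * t : ℕ) : ℝ) ≤ n := by exact_mod_cast hmt
      rw [Nat.cast_mul] at this
      gcongr
    calc (numCopies H6 (blow (AA W) n t) : ℝ) ≤ (numCopies H6 (AA W) : ℝ) * (t : ℝ) ^ 12 := h3
      _ ≤ ((1 / 2) ^ W * (m : ℝ) ^ 12) * (t : ℝ) ^ 12 := by gcongr
      _ = (1 / 2) ^ W * ((m : ℝ) * t) ^ 12 := by ring
      _ ≤ (1 / 2) ^ W * (n : ℝ) ^ 12 := by gcongr

end Vale.Agent.P037
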