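import Vale.Agent.P037.Blow

/-! The counterexample for all small `ε` and all large `n`. -/

open Filter Topology

namespace Vale.Agent.P037

theorem two_pow_ge (y : ℕ) : (y : ℝ) ≤ 2 ^ y := by
  exact_mod_cast (Nat.lt_two_pow_self (n := y)).le

theorem all_large (ε : ℝ) (h0 : 0 < ε) (h1 : ε ≤ 1 / 5184) (n : ℕ)
    (hn : (2 : ℝ) ^ (1 / Real.sqrt ε) ≤ n) :
    ∃ A : Matrix (Fin n) (Fin n) Bool, ε ≤ distFree H6 A ∧
      (numCopies H6 A : ℝ) ≤ 4 * (1 / 2 : ℝ) ^ (1 / (36 * Real.sqrt ε)) * (n : ℝ) ^ 12 := by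
  have hs : 0 < Real.sqrt ε := Real.sqrt_pos.2 h0
  have hs2 : Real.sqrt ε ^ 2 = ε := Real.sq_sqrt h0.le
  have hs3 : Real.sqrt ε ≤ 1 / 72 := by
    rw [Real.sqrt_le_left (by norm_num)]
    norm_num
    linarith
  set x : ℝ := 1 / Real.sqrt ε with hx
  have hx72 : 72 ≤ x := by
    rw [hx, le_div_iff₀ hs]
    linarith
  have hx0 : 0 < x := by linarith
  have hε : ε = 1 / x ^ 2 := by
    rw [hx]
    field_simp
    exact hs2.symm
  have hx36 : 1 / (36 * Real.sqrt ε) = x / 36 := by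
    rw [hx]; field_simp
  obtain ⟨W, hW⟩ : ∃ W : ℕ, ⌊x / 36⌋₊ = W + 1 := by
    have : 2 ≤ ⌊x / 36⌋₊ := Nat.le_floor (by push_cast; linarith)
    exact ⟨⌊x / 36⌋₊ - 1, by omega⟩
  have hW1 : 1 ≤ W := by
    have : 2 ≤ ⌊x / 36⌋₊ := Nat.le_floor (by push_cast; linarith)
    omega
  have hy1 : (W : ℝ) + 1 ≤ x / 36 := by
    have := Nat.floor_le (show 0 ≤ x / 36 by positivity)
    rw [hW] at this
    exact_mod_cast this
  have hy2 : x / 36 < (W : ℝ) + 2 := by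
    have := Nat.lt_floor_add_one (x / 36)
    rw [hW] at this
    push_cast at this
    linarith
  have hnW : 9 * 2 ^ W * (2 * W + 2) ≤ n := by
    have h2 : (9 * 2 ^ W * (2 * W + 2) : ℝ) ≤ 2 ^ x := by
      calc (9 * 2 ^ W * (2 * W + 2) : ℝ) = 9 * 2 ^ (W + 1) * ((W + 1 : ℕ) : ℝ) := by
            push_cast; ring
        _ ≤ 9 * 2 ^ (W + 1) * 2 ^ (W + 1) := by
            have := two_pow_ge (W + 1)
            gcongr
        _ ≤ 2 ^ 4 * 2 ^ (W + 1) * 2 ^ (W + 1) := by gcongr; norm_num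
        _ = (2 : ℝ) ^ (4 + (W + 1) + (W + 1)) := by ring
        _ = (2 : ℝ) ^ (((4 + (W + 1) + (W + 1) : ℕ) : ℝ)) := (Real.rpow_natCast _ _).symm
        _ ≤ 2 ^ x := by
            apply Real.rpow_le_rpow_of_exponent_le (by norm_num)
            push_cast
            linarith
    have h3 : (9 * 2 ^ W * (2 * W + 2) : ℝ) ≤ n := h2.trans hn
    exact_mod_cast h3
  obtain ⟨A, hA1, hA2⟩ := large W hW1 n hnW
  refine ⟨A, le_trans ?_ hA1, hA2.trans ?_⟩
  · rw [hε]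
    have h4 : 36 * ((W : ℝ) + 1) ≤ x := by linarith
    gcongr
  · rw [hx36]
    have h5 : (1 / 2 : ℝ) ^ W ≤ 4 * (1 / 2 : ℝ) ^ (x / 36) := by
      have e1 : (1 / 2 : ℝ) ^ W = 4 * (1 / 2 : ℝ) ^ ((W : ℝ) + 2) := by
        rw [Real.rpow_add (by norm_num), Real.rpow_natCast]
        norm_num
        ring
      rw [e1]
      have : (1 / 2 : ℝ) ^ ((W : ℝ) + 2) ≤ (1 / 2 : ℝ) ^ (x / 36) :=
        Real.rpow_le_rpow_of_exponent_ge (by norm_num) (by norm_num) hy2.le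
      linarith
    gcongr

theorem all_large_poly (c : ℝ) (hc : 0 < c) (C : ℝ) :
    ∃ ε₀ : ℝ, 0 < ε₀ ∧ ∀ ε : ℝ, 0 < ε → ε < ε₀ → ∀ n : ℕ, (2 : ℝ) ^ (1 / Real.sqrt ε) ≤ n →
      ∃ A : Matrix (Fin n) (Fin n) Bool, ε ≤ distFree H6 A ∧
        (numCopies H6 A : ℝ) < c * ε ^ C * (n : ℝ) ^ 12 := by
  have hb : 0 < Real.log 2 / 36 := by
    have := Real.log_pos (show (1 : ℝ) < 2 by norm_num)
    positivity
  have ht := tendsto_rpow_mul_exp_neg_mul_atTop_nhds_zero (2 * C) (Real.log 2 / 36) hb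
  have hc4 : (0 : ℝ) < c / 4 := by positivity
  obtain ⟨x₀, hx₀⟩ := (ht.eventually (gt_mem_nhds hc4)).exists_forall_of_atTop
  set X : ℝ := max x₀ 72 with hX
  have hX72 : 72 ≤ X := le_max_right _ _
  have hX0 : 0 < X := by linarith
  refine ⟨1 / X ^ 2, by positivity, ?_⟩
  intro ε h0 h1 n hn
  have hs : 0 < Real.sqrt ε := Real.sqrt_pos.2 h0
  have hs2 : Real.sqrt ε ^ 2 = ε := Real.sq_sqrt h0.le
  have h2 : Real.sqrt ε < 1 / X := by
    rw [Real.sqrt_lt' (by positivity), div_pow, one_pow]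
    exact h1
  have h3 : X < 1 / Real.sqrt ε := by
    rw [lt_div_iff₀ hX0] at h2
    rw [lt_div_iff₀ hs]
    linarith
  obtain ⟨A, hA1, hA2⟩ := all_large ε h0 (by
    refine h1.le.trans ?_
    rw [div_le_div_iff₀ (by positivity) (by norm_num)]
    nlinarith) n hn
  refine ⟨A, hA1, hA2.trans_lt ?_⟩
  set x : ℝ := 1 / Real.sqrt ε with hx
  have hx0 : 0 < x := by positivity
  have h4 := hx₀ x ((le_max_left _ _).trans h3.le)
  have hε : ε = x ^ (-2 : ℝ) := by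
    rw [hx, Real.rpow_neg (by positivity)]
    have : (1 / Real.sqrt ε : ℝ) ^ (2 : ℝ) = 1 / ε := by
      rw [show (2 : ℝ) = ((2 : ℕ) : ℝ) by norm_num, Real.rpow_natCast, div_pow, one_pow, hs2]
    rw [this]; simp
  have hx36 : 1 / (36 * Real.sqrt ε) = x / 36 := by
    rw [hx]; field_simp
  have hn0 : (0 : ℝ) < n := lt_of_lt_of_le (by positivity) hn
  have h5 : 4 * (1 / 2 : ℝ) ^ (1 / (36 * Real.sqrt ε)) < c * ε ^ C := by
    rw [hx36]
    have e1 : (1 / 2 : ℝ) ^ (x / 36) = Real.exp (-(Real.log 2 / 36) * x) := by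
      rw [Real.rpow_def_of_pos (by norm_num)]
      congr 1
      rw [one_div, Real.log_inv]
      ring
    have e2 : ε ^ C = (x ^ (2 * C))⁻¹ := by
      conv_lhs => rw [hε]
      rw [← Real.rpow_mul hx0.le, ← Real.rpow_neg hx0.le]
      congr 1
      ring
    rw [e1, e2]
    have hp : 0 < x ^ (2 * C) := Real.rpow_pos_of_pos hx0 _
    rw [← div_eq_mul_inv, lt_div_iff₀ hp]
    linarith
  have : (0 : ℝ) < (n : ℝ) ^ 12 := by positivity
  exact mul_lt_mul_of_pos_right h5 this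

end Vale.Agent.P037
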