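import Vale.Agent.P037.Config

/-! The chain of forced zeros in a cell of the tree ends in a contradiction. -/

namespace Vale.Agent.P037

/-- The class of type `t` in the cell `z`. -/
def kap (W z t : ℕ) : ℕ := if t = W + 1 then 2 * W + 1 else 2 * t - 1 + (z / 2 ^ (W - t)) % 2

/-- The other class of type `t`. -/
def kap' (W z t : ℕ) : ℕ := 2 * t - 1 + (1 - (z / 2 ^ (W - t)) % 2)

theorem cl5 {W z p : ℕ} : cl W 5 z p = kap W z (tp W p) := by
  unfold cl kap; norm_num

theorem kap_bd {W z t : ℕ} (h1 : 1 ≤ t) (h2 : t ≤ W + 1) :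
    kap W z t < 2 * W + 2 ∧ ty (kap W z t) = t ∧ 1 ≤ kap W z t := by
  unfold kap ty
  generalize z / 2 ^ (W - t) = x
  split_ifs with h <;> omega

theorem kap'_bd {W z t : ℕ} (h1 : 1 ≤ t) (h2 : t ≤ W) :
    kap' W z t < 2 * W + 2 ∧ ty (kap' W z t) = t ∧ 1 ≤ kap' W z t ∧ kap' W z t ≠ kap W z t := by
  unfold kap kap' ty
  generalize z / 2 ^ (W - t) = x
  rw [if_neg (by omega)]
  omega

theorem cl37 {W g z u : ℕ} (hg : g = 3 ∨ g = 7) (hu : 1 ≤ u) : cl W g z u = u := by
  unfold cl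
  rw [if_neg (by omega), if_neg (by omega), if_neg (by omega), if_pos (by omega)]
  omega

theorem cl46 {W g z u : ℕ} (hg : g = 4 ∨ g = 6) : cl W g z u = 0 := by
  unfold cl
  rw [if_neg (by omega), if_neg (by omega), if_pos (by omega)]

theorem cl8 {W z u : ℕ} : cl W 8 z u = 2 * W + 1 := by
  unfold cl; rw [if_pos rfl]

section
variable {W z : ℕ} {D : ℕ → ℕ → ℕ → ℕ → Prop} (h : Sys W z D)
include h

/-- Trusted zeros between tail rows and columns. -/
theorem Sys.zero {g u g' u' : ℕ} (h1 : 3 ≤ g) (h2 : g < 9) (h3 : u < 2 * W + 2) (h4 : 3 ≤ g')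
    (h5 : g' < 9) (h6 : u' < 2 * W + 2) (h7 : ¬ (g = 5 ∧ g' = 5))
    (h8 : g = 8 ∨ g' = 8 ∨ ty (cl W g z u) ≠ ty (cl W g' z u') ∨ ty (cl W g z u) = 0) :
    ¬ D g u g' u' := by
  rw [h.T g u g' u' h2 h3 h5 h6 h7]
  unfold Off
  rw [if_neg (by omega), if_neg (by omega), if_neg (by omega)]
  rintro ⟨a, b, c, d⟩
  omega

theorem Sys.one {g u g' u' : ℕ} (h1 : 3 ≤ g) (h2 : g < 8) (h3 : u < 2 * W + 2) (h4 : 3 ≤ g')
    (h5 : g' < 8) (h6 : u' < 2 * W + 2) (h7 : ¬ (g = 5 ∧ g' = 5))
    (h8 : ty (cl W g z u) = ty (cl W g' z u')) (h9 : 1 ≤ ty (cl W g z u)) :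
    D g u g' u' := by
  rw [h.T g u g' u' (by omega) h3 (by omega) h6 h7]
  unfold Off
  rw [if_neg (by omega), if_neg (by omega), if_neg (by omega)]
  exact ⟨by omega, by omega, h8, h9⟩

/-- Entries between consecutive types are `0`. -/
theorem Sys.cross {t p p' : ℕ} (ht : 1 ≤ t) (htW : t ≤ W) (hp : p < 2 * W + 2)
    (hp' : p' < 2 * W + 2) (e : tp W p = t) (e' : tp W p' = t + 1) : ¬ D 5 p 5 p' := by
  intro hD
  obtain ⟨k1, k2, k3⟩ := kap_bd (W := W) (z := z) ht (by omega)
  obtain ⟨j1, j2, j3⟩ := kap_bd (W := W) (z := z) (show 1 ≤ t + 1 by omega) (by omega)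
  obtain ⟨l1, l2, l3, l4⟩ := kap'_bd (W := W) (z := z) ht htW
  have c5 : cl W 5 z p = kap W z t := by rw [cl5, e]
  have c5' : cl W 5 z p' = kap W z (t + 1) := by rw [cl5, e']
  have c3 : cl W 3 z (kap' W z t) = kap' W z t := cl37 (Or.inl rfl) l3
  have c7 : cl W 7 z (kap' W z t) = kap' W z t := cl37 (Or.inr rfl) l3
  -- the class of type `t - 1`
  obtain ⟨d, gd, gd', hd, hgd, hgd', hd1, hd2, hd3⟩ : ∃ d gd gd', d < 2 * W + 2 ∧
      (gd = 3 ∨ gd = 4) ∧ (gd' = 6 ∨ gd' = 7) ∧ ty d + 1 = t ∧ cl W gd z d = d ∧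
      cl W gd' z d = d := by
    by_cases h1 : t = 1
    · refine ⟨0, 4, 6, by omega, by omega, by omega, ?_, ?_, ?_⟩
      · unfold ty; omega
      · exact cl46 (Or.inl rfl)
      · exact cl46 (Or.inr rfl)
    · refine ⟨2 * (t - 1) - 1, 3, 7, by omega, by omega, by omega, ?_, ?_, ?_⟩
      · unfold ty; omega
      · exact cl37 (Or.inl rfl) (by omega)
      · exact cl37 (Or.inr rfl) (by omega)
  refine h.copy (g3 := 3) (u3 := kap' W z t) (g4 := 5) (u4 := p) (g5 := 7) (u5 := kap' W z t)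
    (h3 := gd) (v3 := d) (h4 := 5) (v4 := p') (h5 := gd') (v5 := d)
    (k1 := kap' W z t) (k2 := kap W z t) (l1 := d) (l2 := kap W z (t + 1))
    (by omega) (by omega) (by omega) (by omega) l1 hp l1 hd hp' hd (by omega) (by omega)
    (by omega) (by omega) c3 c5 c7 hd2 c5' hd3 l1 k1 hd j1 l4 ?_ ?_ ?_ ?_ ?_ ?_ ?_ ?_ ?_ hD
    ?_ ?_ ?_ ?_
  · intro e; rw [← e] at j2; omega
  · exact Or.inr (Or.inr (by omega))
  · exact Or.inr (Or.inr (by omega))
  · exact Or.inr (Or.inl (by omega))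
  · exact Or.inr (Or.inl (by omega))
  · exact h.zero (by omega) (by omega) l1 (by omega) (by omega) hd (by omega)
      (Or.inr (Or.inr (Or.inl (by rw [c3, hd2]; omega))))
  · exact h.zero (by omega) (by omega) l1 (by omega) (by omega) hp' (by omega)
      (Or.inr (Or.inr (Or.inl (by rw [c3, c5']; omega))))
  · exact h.zero (by omega) (by omega) l1 (by omega) (by omega) hd (by omega)
      (Or.inr (Or.inr (Or.inl (by rw [c3, hd3]; omega))))
  · exact h.zero (by omega) (by omega) hp (by omega) (by omega) hd (by omega)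
      (Or.inr (Or.inr (Or.inl (by rw [c5, hd2]; omega))))
  · exact h.zero (by omega) (by omega) hp (by omega) (by omega) hd (by omega)
      (Or.inr (Or.inr (Or.inl (by rw [c5, hd3]; omega))))
  · exact h.zero (by omega) (by omega) l1 (by omega) (by omega) hd (by omega)
      (Or.inr (Or.inr (Or.inl (by rw [c7, hd2]; omega))))
  · exact h.zero (by omega) (by omega) l1 (by omega) (by omega) hp' (by omega)
      (Or.inr (Or.inr (Or.inl (by rw [c7, c5']; omega))))
  · exact h.zero (by omega) (by omega) l1 (by omega) (by omega) hd (by omega)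
      (Or.inr (Or.inr (Or.inl (by rw [c7, hd3]; omega))))

theorem Sys.cross' {t p p' : ℕ} (ht : 1 ≤ t) (htW : t ≤ W) (hp : p < 2 * W + 2)
    (hp' : p' < 2 * W + 2) (e : tp W p = t) (e' : tp W p' = t + 1) : ¬ D 5 p' 5 p :=
  h.swap.cross ht htW hp hp' e e'

/-- The entries between two rows and columns of the cell of the same type are `0`. -/
theorem Sys.same {t : ℕ} (ht : 1 ≤ t) (htW : t ≤ W + 1) : ∀ {p p' : ℕ}, p < 2 * W + 2 →
    p' < 2 * W + 2 → tp W p = t → tp W p' = t → ¬ D 5 p 5 p' := by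
  induction t, ht using Nat.le_induction with
  | base =>
    intro p p' hp hp' e e' hD
    obtain ⟨k1, k2, k3⟩ := kap_bd (W := W) (z := z) (le_refl 1) htW
    have c5 : cl W 5 z p = kap W z 1 := by rw [cl5, e]
    have c5' : cl W 5 z p' = kap W z 1 := by rw [cl5, e']
    have c4 : cl W 4 z 0 = 0 := cl46 (Or.inl rfl)
    have c6 : cl W 6 z 0 = 0 := cl46 (Or.inr rfl)
    have t0 : ty 0 = 0 := rfl
    have h0 : 0 < 2 * W + 2 := by omega
    refine h.copy (g3 := 4) (u3 := 0) (g4 := 5) (u4 := p) (g5 := 6) (u5 := 0)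
      (h3 := 4) (v3 := 0) (h4 := 5) (v4 := p') (h5 := 6) (v5 := 0)
      (k1 := 0) (k2 := kap W z 1) (l1 := 0) (l2 := kap W z 1)
      (by omega) (by omega) (by omega) (by omega) h0 hp h0 h0 hp' h0 (by omega) (by omega)
      (by omega) (by omega) c4 c5 c6 c4 c5' c6 h0 k1 h0 k1 (by omega) (by omega)
      (Or.inl rfl) (Or.inr (Or.inr (by omega))) (Or.inr (Or.inl (by omega))) (Or.inl rfl)
      ?_ ?_ ?_ ?_ hD ?_ ?_ ?_ ?_
    · exact h.zero (by omega) (by omega) h0 (by omega) (by omega) h0 (by omega)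
        (Or.inr (Or.inr (Or.inr (by rw [c4]; exact t0))))
    · exact h.zero (by omega) (by omega) h0 (by omega) (by omega) hp' (by omega)
        (Or.inr (Or.inr (Or.inr (by rw [c4]; exact t0))))
    · exact h.zero (by omega) (by omega) h0 (by omega) (by omega) h0 (by omega)
        (Or.inr (Or.inr (Or.inr (by rw [c4]; exact t0))))
    · exact h.zero (by omega) (by omega) hp (by omega) (by omega) h0 (by omega)
        (Or.inr (Or.inr (Or.inl (by rw [c4, c5]; omega))))
    · exact h.zero (by omega) (by omega) hp (by omega) (by omega) h0 (by omega)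
        (Or.inr (Or.inr (Or.inl (by rw [c6, c5]; omega))))
    · exact h.zero (by omega) (by omega) h0 (by omega) (by omega) h0 (by omega)
        (Or.inr (Or.inr (Or.inr (by rw [c6]; exact t0))))
    · exact h.zero (by omega) (by omega) h0 (by omega) (by omega) hp' (by omega)
        (Or.inr (Or.inr (Or.inr (by rw [c6]; exact t0))))
    · exact h.zero (by omega) (by omega) h0 (by omega) (by omega) h0 (by omega)
        (Or.inr (Or.inr (Or.inr (by rw [c6]; exact t0))))
  | succ t ht ih =>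
    intro p p' hp hp' e e' hD
    have ih' := @ih (by omega)
    obtain ⟨k1, k2, k3⟩ := kap_bd (W := W) (z := z) ht (by omega)
    obtain ⟨j1, j2, j3⟩ := kap_bd (W := W) (z := z) (show 1 ≤ t + 1 by omega) (by omega)
    have c5 : cl W 5 z p = kap W z (t + 1) := by rw [cl5, e]
    have c5' : cl W 5 z p' = kap W z (t + 1) := by rw [cl5, e']
    have ea : tp W (t - 1) = t := by unfold tp; omega
    have eb : tp W (2 * W + 2 - t) = t := by unfold tp; omega
    have ca : cl W 5 z (t - 1) = kap W z t := by rw [cl5, ea]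
    have cb : cl W 5 z (2 * W + 2 - t) = kap W z t := by rw [cl5, eb]
    have b1 : t - 1 < p ∧ p < 2 * W + 2 - t := by unfold tp at e; omega
    have b2 : t - 1 < p' ∧ p' < 2 * W + 2 - t := by unfold tp at e'; omega
    have hne : kap W z t ≠ kap W z (t + 1) := by intro e; rw [← e] at j2; omega
    have ta : t - 1 < 2 * W + 2 := by omega
    have tb : 2 * W + 2 - t < 2 * W + 2 := by omega
    exact h.copy (g3 := 5) (u3 := t - 1) (g4 := 5) (u4 := p) (g5 := 5) (u5 := 2 * W + 2 - t)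
      (h3 := 5) (v3 := t - 1) (h4 := 5) (v4 := p') (h5 := 5) (v5 := 2 * W + 2 - t)
      (k1 := kap W z t) (k2 := kap W z (t + 1)) (l1 := kap W z t) (l2 := kap W z (t + 1))
      (by omega) (by omega) (by omega) (by omega) ta hp tb ta hp' tb
      (Or.inr ⟨rfl, rfl, b1.1⟩) (Or.inr ⟨rfl, rfl, b1.2⟩)
      (Or.inr ⟨rfl, rfl, b2.1⟩) (Or.inr ⟨rfl, rfl, b2.2⟩) ca c5 cb ca c5' cb k1 j1 k1 j1
      hne hne (Or.inl rfl) (Or.inr (Or.inr (by omega))) (Or.inr (Or.inl (by omega))) (Or.inl rfl)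
      (ih' ta ta ea ea) (h.cross ht (by omega) ta hp' ea e') (ih' ta tb ea eb)
      (h.cross' ht (by omega) ta hp ea e) hD (h.cross' ht (by omega) tb hp eb e)
      (ih' tb ta eb ea) (h.cross ht (by omega) tb hp' eb e') (ih' tb tb eb eb)

/-- There is no such system. -/
theorem Sys.false (hW : 1 ≤ W) : False := by
  have hT : tp W W = W + 1 := by unfold tp; omega
  have hW2 : W < 2 * W + 2 := by omega
  have hS := h.same (t := W + 1) (by omega) le_rfl hW2 hW2 hT hT
  have c5 : cl W 5 z W = 2 * W + 1 := by rw [cl5, hT]; unfold kap; rw [if_pos rfl]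
  have c7 : cl W 7 z (2 * W - 1) = 2 * W - 1 := cl37 (Or.inr rfl) (by omega)
  have c8 : cl W 8 z 0 = 2 * W + 1 := cl8
  have t1 : ty (2 * W + 1) = W + 1 := by unfold ty; omega
  have t2 : ty (2 * W - 1) = W := by unfold ty; omega
  have b1 : 2 * W - 1 < 2 * W + 2 := by omega
  have b0 : 0 < 2 * W + 2 := by omega
  have bT : 2 * W + 1 < 2 * W + 2 := by omega
  refine h.copy (g3 := 5) (u3 := W) (g4 := 7) (u4 := 2 * W - 1) (g5 := 8) (u5 := 0)
    (h3 := 5) (v3 := W) (h4 := 7) (v4 := 2 * W - 1) (h5 := 8) (v5 := 0)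
    (k1 := 2 * W + 1) (k2 := 2 * W - 1) (l1 := 2 * W + 1) (l2 := 2 * W - 1)
    (by omega) (by omega) (by omega) (by omega) hW2 b1 b0 hW2 b1 b0 (by omega) (by omega)
    (by omega) (by omega) c5 c7 c8 c5 c7 c8 bT b1 bT b1 (by omega) (by omega)
    (Or.inl rfl) (Or.inr (Or.inl (by omega))) (Or.inr (Or.inr (by omega))) (Or.inl rfl)
    hS ?_ ?_ ?_ ?_ ?_ ?_ ?_ ?_
  · exact h.zero (by omega) (by omega) hW2 (by omega) (by omega) b1 (by omega)
      (Or.inr (Or.inr (Or.inl (by rw [c5, c7]; omega))))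
  · exact h.zero (by omega) (by omega) hW2 (by omega) (by omega) b0 (by omega)
      (Or.inr (Or.inl rfl))
  · exact h.zero (by omega) (by omega) b1 (by omega) (by omega) hW2 (by omega)
      (Or.inr (Or.inr (Or.inl (by rw [c5, c7]; omega))))
  · exact h.one (by omega) (by omega) b1 (by omega) (by omega) b1 (by omega) rfl
      (by rw [c7]; omega)
  · exact h.zero (by omega) (by omega) b1 (by omega) (by omega) b0 (by omega)
      (Or.inr (Or.inl rfl))
  · exact h.zero (by omega) (by omega) b0 (by omega) (by omega) hW2 (by omega) (Or.inl rfl)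
  · exact h.zero (by omega) (by omega) b0 (by omega) (by omega) b1 (by omega) (Or.inl rfl)
  · exact h.zero (by omega) (by omega) b0 (by omega) (by omega) b0 (by omega) (Or.inl rfl)

end

end Vale.Agent.P037
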