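import Vale.Agent.P037.Struct3

/-! A system of rows and columns all of whose entries, except those between two rows and columns of
the same cell, are correct, contains a copy of `H6`. -/

namespace Vale.Agent.P037

/-- The entries outside the cell blocks. -/
def Off (g k g' k' : ℕ) : Prop :=
  if g = 0 ∨ g' = 0 then g ≤ 2 ∧ g' ≤ 2
  else if g ≤ 2 ∧ g' ≤ 2 then Rel k k'
  else if g ≤ 2 ∨ g' ≤ 2 then k = k'
  else (g ≠ 8 ∧ g' ≠ 8 ∧ ty k = ty k' ∧ 1 ≤ ty k)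

theorem Rel.symm {x y : ℕ} (h : Rel x y) : Rel y x := by
  rcases h with h | h | h
  · exact Or.inl h.symm
  · exact Or.inr (Or.inr h)
  · exact Or.inr (Or.inl h)

theorem Off_symm {g k g' k' : ℕ} (h : Off g k g' k') : Off g' k' g k := by
  unfold Off at *
  split_ifs at h ⊢ <;> first | omega | exact h.symm

theorem cl_X {W g z k : ℕ} (h : g = 1 ∨ g = 2) : cl W g z k = k := by
  unfold cl
  rw [if_neg (by omega), if_neg (by omega), if_neg (by omega), if_neg (by omega)]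

/-- Hypotheses on the system. -/
structure Sys (W z : ℕ) (D : ℕ → ℕ → ℕ → ℕ → Prop) : Prop where
  T : ∀ g u g' u', g < 9 → u < 2 * W + 2 → g' < 9 → u' < 2 * W + 2 → ¬ (g = 5 ∧ g' = 5) →
    (D g u g' u' ↔ Off g (cl W g z u) g' (cl W g' z u'))
  N : ∀ g u g' u' : Fin 6 → ℕ, (∀ i, g i < 9 ∧ u i < 2 * W + 2) →
    (∀ i, g' i < 9 ∧ u' i < 2 * W + 2) →
    (∀ i j, i < j → g i < g j ∨ (g i = 5 ∧ g j = 5 ∧ u i < u j)) →
    (∀ i j, i < j → g' i < g' j ∨ (g' i = 5 ∧ g' j = 5 ∧ u' i < u' j)) →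
    ¬ ∀ i j, (D (g i) (u i) (g' j) (u' j) ↔ H6 i j = true)

theorem Sys.swap {W z : ℕ} {D : ℕ → ℕ → ℕ → ℕ → Prop} (h : Sys W z D) :
    Sys W z (fun g u g' u' => D g' u' g u) where
  T := by
    intro g u g' u' h1 h2 h3 h4 h5
    rw [h.T g' u' g u h3 h4 h1 h2 (fun hh => h5 ⟨hh.2, hh.1⟩)]
    exact ⟨Off_symm, Off_symm⟩
  N := by
    intro g u g' u' h1 h2 h3 h4 h5
    refine h.N g' u' g u h2 h1 h4 h3 fun i j => ?_
    rw [h5 j i, H6_symm]

section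
variable {W z : ℕ} {D : ℕ → ℕ → ℕ → ℕ → Prop} (h : Sys W z D)
include h

theorem Sys.FF {g' u' : ℕ} (h1 : g' ≤ 2) (h2 : u' < 2 * W + 2) : D 0 0 g' u' := by
  rw [h.T 0 0 g' u' (by omega) (by omega) (by omega) h2 (by omega)]
  unfold Off; rw [if_pos (Or.inl rfl)]; omega

theorem Sys.FT {g' u' : ℕ} (h1 : 3 ≤ g') (h1' : g' < 9) (h2 : u' < 2 * W + 2) : ¬ D 0 0 g' u' := by
  rw [h.T 0 0 g' u' (by omega) (by omega) (by omega) h2 (by omega)]
  unfold Off; rw [if_pos (Or.inl rfl)]; omega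

theorem Sys.XX {g k g' k' : ℕ} (h1 : g = 1 ∨ g = 2) (h2 : g' = 1 ∨ g' = 2) (hk : k < 2 * W + 2)
    (hk' : k' < 2 * W + 2) (hr : Rel k k') : D g k g' k' := by
  rw [h.T g k g' k' (by omega) (by omega) (by omega) (by omega) (by omega)]
  rw [cl_X h1, cl_X h2]
  unfold Off; rw [if_neg (by omega), if_pos (by omega)]; exact hr

theorem Sys.XT {g k g' u' : ℕ} (h1 : g = 1 ∨ g = 2) (h2 : 3 ≤ g') (h2' : g' < 9)
    (hk : k < 2 * W + 2) (hk' : u' < 2 * W + 2) : D g k g' u' ↔ k = cl W g' z u' := by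
  rw [h.T g k g' u' (by omega) (by omega) (by omega) (by omega) (by omega)]
  rw [cl_X h1]
  unfold Off; rw [if_neg (by omega), if_neg (by omega), if_pos (by omega)]

/-- The central lemma: nine facts about the last rows and columns give a copy. -/
theorem Sys.copy {g3 u3 g4 u4 g5 u5 h3 v3 h4 v4 h5 v5 k1 k2 l1 l2 : ℕ}
    (hg3 : 3 ≤ g3) (hg5 : g5 < 9) (hh3 : 3 ≤ h3) (hh5 : h5 < 9)
    (hu3 : u3 < 2 * W + 2) (hu4 : u4 < 2 * W + 2) (hu5 : u5 < 2 * W + 2)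
    (hv3 : v3 < 2 * W + 2) (hv4 : v4 < 2 * W + 2) (hv5 : v5 < 2 * W + 2)
    (o34 : g3 < g4 ∨ (g3 = 5 ∧ g4 = 5 ∧ u3 < u4)) (o45 : g4 < g5 ∨ (g4 = 5 ∧ g5 = 5 ∧ u4 < u5))
    (q34 : h3 < h4 ∨ (h3 = 5 ∧ h4 = 5 ∧ v3 < v4)) (q45 : h4 < h5 ∨ (h4 = 5 ∧ h5 = 5 ∧ v4 < v5))
    (c3 : cl W g3 z u3 = k1) (c4 : cl W g4 z u4 = k2) (c5 : cl W g5 z u5 = k1)
    (d3 : cl W h3 z v3 = l1) (d4 : cl W h4 z v4 = l2) (d5 : cl W h5 z v5 = l1)
    (hk1 : k1 < 2 * W + 2) (hk2 : k2 < 2 * W + 2) (hl1 : l1 < 2 * W + 2) (hl2 : l2 < 2 * W + 2)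
    (hk : k1 ≠ k2) (hl : l1 ≠ l2)
    (r11 : Rel l1 k1) (r12 : Rel l1 k2) (r21 : Rel l2 k1) (r22 : Rel l2 k2)
    (e33 : ¬ D g3 u3 h3 v3) (e34 : ¬ D g3 u3 h4 v4) (e35 : ¬ D g3 u3 h5 v5)
    (e43 : ¬ D g4 u4 h3 v3) (e44 : D g4 u4 h4 v4) (e45 : ¬ D g4 u4 h5 v5)
    (e53 : ¬ D g5 u5 h3 v3) (e54 : ¬ D g5 u5 h4 v4) (e55 : ¬ D g5 u5 h5 v5) : False := by
  have hs := h.swap
  have a00 : D 0 0 0 0 := h.FF (by omega) (by omega)
  have a01 : D 0 0 1 k1 := h.FF (by omega) hk1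
  have a02 : D 0 0 2 k2 := h.FF (by omega) hk2
  have a03 : ¬ D 0 0 h3 v3 := h.FT (by omega) (by omega) hv3
  have a04 : ¬ D 0 0 h4 v4 := h.FT (by omega) (by omega) hv4
  have a05 : ¬ D 0 0 h5 v5 := h.FT (by omega) (by omega) hv5
  have a10 : D 1 l1 0 0 := hs.FF (by omega) hl1
  have a20 : D 2 l2 0 0 := hs.FF (by omega) hl2
  have a30 : ¬ D g3 u3 0 0 := hs.FT (by omega) (by omega) hu3
  have a40 : ¬ D g4 u4 0 0 := hs.FT (by omega) (by omega) hu4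
  have a50 : ¬ D g5 u5 0 0 := hs.FT (by omega) (by omega) hu5
  have a11 : D 1 l1 1 k1 := h.XX (by omega) (by omega) hl1 hk1 r11
  have a12 : D 1 l1 2 k2 := h.XX (by omega) (by omega) hl1 hk2 r12
  have a21 : D 2 l2 1 k1 := h.XX (by omega) (by omega) hl2 hk1 r21
  have a22 : D 2 l2 2 k2 := h.XX (by omega) (by omega) hl2 hk2 r22
  have a13 : D 1 l1 h3 v3 := (h.XT (by omega) (by omega) (by omega) hl1 hv3).2 d3.symm
  have a14 : ¬ D 1 l1 h4 v4 := fun e =>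
    hl ((((h.XT (by omega) (by omega) (by omega) hl1 hv4).1 e)).trans d4)
  have a15 : D 1 l1 h5 v5 := (h.XT (by omega) (by omega) (by omega) hl1 hv5).2 d5.symm
  have a23 : ¬ D 2 l2 h3 v3 := fun e =>
    hl.symm ((((h.XT (by omega) (by omega) (by omega) hl2 hv3).1 e)).trans d3)
  have a24 : D 2 l2 h4 v4 := (h.XT (by omega) (by omega) (by omega) hl2 hv4).2 d4.symm
  have a25 : ¬ D 2 l2 h5 v5 := fun e =>
    hl.symm ((((h.XT (by omega) (by omega) (by omega) hl2 hv5).1 e)).trans d5)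
  have a31 : D g3 u3 1 k1 := (hs.XT (by omega) (by omega) (by omega) hk1 hu3).2 c3.symm
  have a41 : ¬ D g4 u4 1 k1 := fun e =>
    hk ((((hs.XT (by omega) (by omega) (by omega) hk1 hu4).1 e)).trans c4)
  have a51 : D g5 u5 1 k1 := (hs.XT (by omega) (by omega) (by omega) hk1 hu5).2 c5.symm
  have a32 : ¬ D g3 u3 2 k2 := fun e =>
    hk.symm ((((hs.XT (by omega) (by omega) (by omega) hk2 hu3).1 e)).trans c3)
  have a42 : D g4 u4 2 k2 := (hs.XT (by omega) (by omega) (by omega) hk2 hu4).2 c4.symm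
  have a52 : ¬ D g5 u5 2 k2 := fun e =>
    hk.symm ((((hs.XT (by omega) (by omega) (by omega) hk2 hu5).1 e)).trans c5)
  clear hs
  refine h.N ![0, 1, 2, g3, g4, g5] ![0, l1, l2, u3, u4, u5] ![0, 1, 2, h3, h4, h5]
    ![0, k1, k2, v3, v4, v5] ?_ ?_ ?_ ?_ ?_
  · intro i; fin_cases i <;> simp <;> omega
  · intro i; fin_cases i <;> simp <;> omega
  · intro i j hij
    fin_cases i <;> fin_cases j <;> first | exact absurd hij (by decide) | (simp; done) | (simp; omega)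
  · intro i j hij
    fin_cases i <;> fin_cases j <;> first | exact absurd hij (by decide) | (simp; done) | (simp; omega)
  · intro i j
    fin_cases i <;> fin_cases j <;> simp [H6, *]

end

end Vale.Agent.P037
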