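import Vale.Agent.P037.Chain

/-! The matrix, the number of copies of `H6` in it, and its distance from `H6`-freeness. -/

namespace Vale.Agent.P037

open Classical in
/-- The matrix of the counterexample. -/
noncomputable def AA (W : ℕ) : Matrix (Fin (9 * 2 ^ W * (2 * W + 2))) (Fin (9 * 2 ^ W * (2 * W + 2)))
    Bool := fun r c => decide (Ex W r c)

theorem gr_lt {W r : ℕ} (h : r < 9 * 2 ^ W * (2 * W + 2)) : gr W r < 9 := by
  unfold gr
  rw [Nat.div_lt_iff_lt_mul (by positivity), Nat.div_lt_iff_lt_mul (by omega)]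
  exact h

theorem isCopy_block {W : ℕ} (hW : 1 ≤ W) {r c : Fin 6 → Fin (9 * 2 ^ W * (2 * W + 2))}
    (h : IsCopy H6 (AA W) r c) : (r 3 : ℕ) / (2 * W + 2) = (c 3 : ℕ) / (2 * W + 2) := by
  have hc : Cop W (fun i => (r i : ℕ)) (fun i => (c i : ℕ)) := by
    refine ⟨fun i j hij => ?_, fun i j hij => ?_, fun i j => ?_⟩
    · exact h.1.monotone hij
    · exact h.2.1.monotone hij
    · have := h.2.2 i j
      unfold AA at this
      rw [← this]
      simp
  exact step3 hc hW (Nat.lt_succ_iff.1 (gr_lt (r 5).2)) (Nat.lt_succ_iff.1 (gr_lt (c 5).2))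

theorem numCopies_le {W : ℕ} (hW : 1 ≤ W) :
    numCopies H6 (AA W) ≤ (9 * 2 ^ W * (2 * W + 2)) ^ 11 * (2 * W + 2) := by
  unfold numCopies
  let φ : {p : (Fin 6 → Fin (9 * 2 ^ W * (2 * W + 2))) × (Fin 6 → Fin (9 * 2 ^ W * (2 * W + 2))) //
      IsCopy H6 (AA W) p.1 p.2} → (Fin 6 → Fin (9 * 2 ^ W * (2 * W + 2))) ×
      (Fin 5 → Fin (9 * 2 ^ W * (2 * W + 2))) × Fin (2 * W + 2) := fun p =>
    (p.1.1, Fin.removeNth 3 p.1.2, ⟨(p.1.2 3 : ℕ) % (2 * W + 2), Nat.mod_lt _ (by omega)⟩)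
  have hφ : Function.Injective φ := by
    intro p q hpq
    simp only [φ, Prod.mk.injEq, Fin.mk.injEq] at hpq
    obtain ⟨h1, h2, h3⟩ := hpq
    have b1 := isCopy_block hW p.2
    have b2 := isCopy_block hW q.2
    rw [h1] at b1
    have e3 : p.1.2 3 = q.1.2 3 := by
      apply Fin.ext
      have m1 := Nat.div_add_mod (p.1.2 3 : ℕ) (2 * W + 2)
      have m2 := Nat.div_add_mod (q.1.2 3 : ℕ) (2 * W + 2)
      rw [← b1, b2, h3] at m1
      omega
    apply Subtype.ext
    apply Prod.ext h1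
    have i1 := Fin.insertNth_self_removeNth (3 : Fin 6) p.1.2
    have i2 := Fin.insertNth_self_removeNth (3 : Fin 6) q.1.2
    rw [← i1, ← i2, h2, e3]
  have := Nat.card_le_card_of_injective φ hφ
  refine this.trans (le_of_eq ?_)
  rw [Nat.card_eq_fintype_card]
  simp only [Fintype.card_prod, Fintype.card_fun, Fintype.card_fin]
  ring

/-- The position of the line `u` of the copy (or cell) `s` in the group `g`. -/
def posn (W g s u : ℕ) : ℕ := (g * 2 ^ W + s) * (2 * W + 2) + u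

theorem posn_div {W g s u : ℕ} (hu : u < 2 * W + 2) :
    posn W g s u / (2 * W + 2) = g * 2 ^ W + s := by
  unfold posn
  rw [mul_comm, Nat.mul_add_div (by omega), Nat.div_eq_of_lt hu, add_zero]

theorem posn_gr {W g s u : ℕ} (hs : s < 2 ^ W) (hu : u < 2 * W + 2) : gr W (posn W g s u) = g := by
  unfold gr
  rw [posn_div hu, mul_comm, Nat.mul_add_div (by positivity), Nat.div_eq_of_lt hs, add_zero]

theorem posn_zz {W g s u : ℕ} (hs : s < 2 ^ W) (hu : u < 2 * W + 2) : zz W (posn W g s u) = s := by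
  unfold zz
  rw [posn_div hu, mul_comm, Nat.mul_add_mod, Nat.mod_eq_of_lt hs]

theorem posn_mod {W g s u : ℕ} (hu : u < 2 * W + 2) : posn W g s u % (2 * W + 2) = u := by
  unfold posn
  rw [mul_comm, Nat.mul_add_mod, Nat.mod_eq_of_lt hu]

theorem posn_lt {W g s u : ℕ} (hg : g < 9) (hs : s < 2 ^ W) (hu : u < 2 * W + 2) :
    posn W g s u < 9 * 2 ^ W * (2 * W + 2) := by
  unfold posn
  have h1 : g * 2 ^ W + s + 1 ≤ 9 * 2 ^ W := by
    have : (g + 1) * 2 ^ W ≤ 9 * 2 ^ W := Nat.mul_le_mul_right _ (by omega)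
    rw [add_mul] at this
    omega
  have h2 := Nat.mul_le_mul_right (2 * W + 2) h1
  rw [add_mul] at h2
  omega

theorem posn_kk {W g s u : ℕ} (hs : s < 2 ^ W) (hu : u < 2 * W + 2) :
    kk W (posn W g s u) = cl W g s u := by
  unfold kk
  rw [posn_gr hs hu, posn_zz hs hu, posn_mod hu]

theorem cl_indep {W g s z u : ℕ} (hg : g ≠ 5) : cl W g s u = cl W g z u := by
  unfold cl
  rw [if_neg hg, if_neg hg]

/-- Off the cell blocks the matrix is given by `Off`. -/
theorem Ex_off {W g u g' u' s s' z : ℕ} (hs : s < 2 ^ W) (hs' : s' < 2 ^ W)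
    (hu : u < 2 * W + 2) (hu' : u' < 2 * W + 2) (hne : ¬ (g = 5 ∧ g' = 5))
    (h5 : g = 5 → s = z) (h5' : g' = 5 → s' = z) :
    Ex W (posn W g s u) (posn W g' s' u') ↔ Off g (cl W g z u) g' (cl W g' z u') := by
  unfold Ex
  rw [posn_gr hs hu, posn_gr hs' hu', posn_zz hs hu, posn_zz hs' hu', posn_kk hs hu,
    posn_kk hs' hu']
  have e1 : cl W g s u = cl W g z u := by
    by_cases hg : g = 5
    · rw [h5 hg]
    · exact cl_indep hg
  have e2 : cl W g' s' u' = cl W g' z u' := by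
    by_cases hg : g' = 5
    · rw [h5' hg]
    · exact cl_indep hg
  rw [e1, e2]
  unfold Ent Off Rel
  split_ifs
  · rfl
  · rfl
  · rfl
  · constructor
    · rintro ⟨a, b, c, d, -⟩
      exact ⟨a, b, c, d⟩
    · rintro ⟨a, b, c, d⟩
      exact ⟨a, b, c, d, fun h => hne ⟨h.1, h.2.1⟩⟩

theorem posn_lt_posn {W g s u g' s' u' : ℕ} (hs : s < 2 ^ W) (hu : u < 2 * W + 2)
    (h : g < g' ∨ (g = g' ∧ s = s' ∧ u < u')) : posn W g s u < posn W g' s' u' := by
  unfold posn
  rcases h with h | ⟨rfl, rfl, h⟩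
  · have h1 : g * 2 ^ W + s + 1 ≤ g' * 2 ^ W + s' := by
      have : (g + 1) * 2 ^ W ≤ g' * 2 ^ W := Nat.mul_le_mul_right _ (by omega)
      rw [add_mul] at this
      omega
    have h2 := Nat.mul_le_mul_right (2 * W + 2) h1
    rw [add_mul] at h2
    omega
  · omega

/-- Any matrix which is correct at all pairs of a row and a column outside a cell block contains a
copy. -/
theorem no_good {W : ℕ} (hW : 1 ≤ W)
    (B : Matrix (Fin (9 * 2 ^ W * (2 * W + 2))) (Fin (9 * 2 ^ W * (2 * W + 2))) Bool)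
    (hB : IsFree H6 B) {z s s' : ℕ} (hz : z < 2 ^ W) (hs : s < 2 ^ W) (hs' : s' < 2 ^ W)
    (hgood : ∀ (g u g' u' : ℕ), g < 9 → u < 2 * W + 2 → g' < 9 → u' < 2 * W + 2 →
      ¬ (g = 5 ∧ g' = 5) →
      ∀ h1 : posn W g (if g = 5 then z else s) u < 9 * 2 ^ W * (2 * W + 2),
      ∀ h2 : posn W g' (if g' = 5 then z else s') u' < 9 * 2 ^ W * (2 * W + 2),
      AA W ⟨_, h1⟩ ⟨_, h2⟩ = B ⟨_, h1⟩ ⟨_, h2⟩) : False := by
  have q1 : ∀ g : ℕ, (if g = 5 then z else s) < 2 ^ W := fun g => by split_ifs <;> assumption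
  have q2 : ∀ g : ℕ, (if g = 5 then z else s') < 2 ^ W := fun g => by split_ifs <;> assumption
  let D : ℕ → ℕ → ℕ → ℕ → Prop := fun g u g' u' =>
    ∃ (h1 : posn W g (if g = 5 then z else s) u < 9 * 2 ^ W * (2 * W + 2))
      (h2 : posn W g' (if g' = 5 then z else s') u' < 9 * 2 ^ W * (2 * W + 2)),
      B ⟨_, h1⟩ ⟨_, h2⟩ = true
  have hD : Sys W z D := by
    constructor
    · intro g u g' u' hg hu hg' hu' hne
      have h1 := posn_lt hg (q1 g) hu
      have h2 := posn_lt hg' (q2 g') hu'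
      rw [← Ex_off (q1 g) (q2 g') hu hu' hne (fun h => by rw [if_pos h]) (fun h => by rw [if_pos h])]
      have hh := hgood g u g' u' hg hu hg' hu' hne h1 h2
      constructor
      · rintro ⟨_, _, e⟩
        rw [← hh] at e
        unfold AA at e
        simpa using e
      · intro e
        refine ⟨h1, h2, ?_⟩
        rw [← hh]
        unfold AA
        simpa using e
    · intro g u g' u' hr hc or oc hall
      -- build a copy
      have hB' : IsEmpty {p : (Fin 6 → Fin (9 * 2 ^ W * (2 * W + 2))) ×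
          (Fin 6 → Fin (9 * 2 ^ W * (2 * W + 2))) // IsCopy H6 B p.1 p.2} := by
        have := hB
        unfold IsFree numCopies at this
        rw [Nat.card_eq_zero] at this
        rcases this with h | h
        · exact h
        · exact absurd h (by rw [not_infinite_iff_finite]; infer_instance)
      apply hB'.false
      refine ⟨⟨fun i => ⟨_, posn_lt (hr i).1 (q1 (g i)) (hr i).2⟩,
        fun i => ⟨_, posn_lt (hc i).1 (q2 (g' i)) (hc i).2⟩⟩, ?_, ?_, ?_⟩
      · intro i j hij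
        apply Fin.mk_lt_mk.2
        apply posn_lt_posn (q1 _) (hr i).2
        rcases or i j hij with h | ⟨h, h', h''⟩
        · exact Or.inl h
        · exact Or.inr ⟨by omega, by rw [if_pos h, if_pos h'], h''⟩
      · intro i j hij
        apply Fin.mk_lt_mk.2
        apply posn_lt_posn (q2 _) (hc i).2
        rcases oc i j hij with h | ⟨h, h', h''⟩
        · exact Or.inl h
        · exact Or.inr ⟨by omega, by rw [if_pos h, if_pos h'], h''⟩
      · intro i j
        have hij := hall i j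
        rw [Bool.eq_iff_iff, ← hij]
        constructor
        · intro e
          exact ⟨_, _, e⟩
        · rintro ⟨_, _, e⟩
          exact e
  exact hD.false hW

/-- Every `H6`-free matrix differs from the matrix in at least `4 ^ W` entries. -/
theorem far {W : ℕ} (hW : 1 ≤ W)
    (B : Matrix (Fin (9 * 2 ^ W * (2 * W + 2))) (Fin (9 * 2 ^ W * (2 * W + 2))) Bool)
    (hB : IsFree H6 B) : 2 ^ W * 2 ^ W ≤ diffCount (AA W) B := by
  classical
  -- a wrong entry for each choice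
  have hbad : ∀ ω : Fin (2 ^ W) × Fin (2 ^ W) × Fin (2 ^ W), ∃ (g u g' u' : ℕ), g < 9 ∧
      u < 2 * W + 2 ∧ g' < 9 ∧ u' < 2 * W + 2 ∧ ¬ (g = 5 ∧ g' = 5) ∧
      ∃ (h1 : posn W g (if g = 5 then (ω.1 : ℕ) else ω.2.1) u < 9 * 2 ^ W * (2 * W + 2))
        (h2 : posn W g' (if g' = 5 then (ω.1 : ℕ) else ω.2.2) u' < 9 * 2 ^ W * (2 * W + 2)),
        AA W ⟨_, h1⟩ ⟨_, h2⟩ ≠ B ⟨_, h1⟩ ⟨_, h2⟩ := by
    intro ω
    by_contra hcon
    refine no_good hW B hB ω.1.2 ω.2.1.2 ω.2.2.2 ?_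
    intro g u g' u' hg hu hg' hu' hne h1 h2
    by_contra hc
    exact hcon ⟨g, u, g', u', hg, hu, hg', hu', hne, h1, h2, hc⟩
  choose g u g' u' hg hu hg' hu' hne h1 h2 hx using hbad
  let E : Finset (Fin (9 * 2 ^ W * (2 * W + 2)) × Fin (9 * 2 ^ W * (2 * W + 2))) :=
    Finset.univ.filter fun p => AA W p.1 p.2 ≠ B p.1 p.2
  let Φ : Fin (2 ^ W) × Fin (2 ^ W) × Fin (2 ^ W) → E × Fin (2 ^ W) := fun ω =>
    (⟨(⟨_, h1 ω⟩, ⟨_, h2 ω⟩), by simp only [E, Finset.mem_filter, Finset.mem_univ, true_and]; exact hx ω⟩,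
      if g ω = 5 then ω.2.1 else if g' ω = 5 then ω.2.2 else ω.1)
  have hΦ : Function.Injective Φ := by
    intro ω ω' heq
    simp only [Φ, Prod.mk.injEq, Subtype.mk.injEq, Fin.mk.injEq] at heq
    obtain ⟨⟨e1, e2⟩, e3⟩ := heq
    have q1 : ∀ ω : Fin (2 ^ W) × Fin (2 ^ W) × Fin (2 ^ W),
        (if g ω = 5 then (ω.1 : ℕ) else ω.2.1) < 2 ^ W := fun ω => by
      split_ifs
      · exact ω.1.2
      · exact ω.2.1.2
    have q2 : ∀ ω : Fin (2 ^ W) × Fin (2 ^ W) × Fin (2 ^ W),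
        (if g' ω = 5 then (ω.1 : ℕ) else ω.2.2) < 2 ^ W := fun ω => by
      split_ifs
      · exact ω.1.2
      · exact ω.2.2.2
    have g1 : g ω = g ω' := by
      have := congrArg (gr W) e1
      rwa [posn_gr (q1 ω) (hu ω), posn_gr (q1 ω') (hu ω')] at this
    have g2 : g' ω = g' ω' := by
      have := congrArg (gr W) e2
      rwa [posn_gr (q2 ω) (hu' ω), posn_gr (q2 ω') (hu' ω')] at this
    have z1 : (if g ω = 5 then (ω.1 : ℕ) else ω.2.1) = (if g ω' = 5 then (ω'.1 : ℕ) else ω'.2.1) := by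
      have := congrArg (zz W) e1
      rwa [posn_zz (q1 ω) (hu ω), posn_zz (q1 ω') (hu ω')] at this
    have z2 : (if g' ω = 5 then (ω.1 : ℕ) else ω.2.2) =
        (if g' ω' = 5 then (ω'.1 : ℕ) else ω'.2.2) := by
      have := congrArg (zz W) e2
      rwa [posn_zz (q2 ω) (hu' ω), posn_zz (q2 ω') (hu' ω')] at this
    rw [← g1] at z1 e3
    rw [← g2] at z2 e3
    obtain ⟨a, b, c⟩ := ω
    obtain ⟨a', b', c'⟩ := ω'
    by_cases c1 : g (a, b, c) = 5
    · have c2 : ¬ g' (a, b, c) = 5 := fun hc => hne _ ⟨c1, hc⟩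
      rw [if_pos c1, if_pos c1] at z1
      rw [if_neg c2, if_neg c2] at z2
      rw [if_pos c1, if_pos c1] at e3
      simp only at z1 z2 e3
      rw [Fin.ext z1, Fin.ext z2, e3]
    · rw [if_neg c1, if_neg c1] at z1
      rw [if_neg c1, if_neg c1] at e3
      by_cases c2 : g' (a, b, c) = 5
      · rw [if_pos c2, if_pos c2] at z2
        rw [if_pos c2, if_pos c2] at e3
        simp only at z1 z2 e3
        rw [Fin.ext z1, Fin.ext z2, e3]
      · rw [if_neg c2, if_neg c2] at z2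
        rw [if_neg c2, if_neg c2] at e3
        simp only at z1 z2 e3
        rw [Fin.ext z1, Fin.ext z2, e3]
  have hcard := Fintype.card_le_of_injective Φ hΦ
  simp only [Fintype.card_prod, Fintype.card_fin, Fintype.card_coe] at hcard
  have hpos : 0 < 2 ^ W := by positivity
  have : 2 ^ W * (2 ^ W * 2 ^ W) ≤ E.card * 2 ^ W := hcard
  rw [mul_comm E.card] at this
  exact Nat.le_of_mul_le_mul_left this hpos

end Vale.Agent.P037
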