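import Mathlib

/-! Ordered copies of a pattern in a binary matrix: basic definitions. -/

namespace Vale.Agent.P037

/-- `IsCopy H A r c`: the rows `r 0 < ⋯ < r (k-1)` and the columns `c 0 < ⋯ < c (k-1)` of `A` form
an ordered copy of the `k × k` pattern `H`. -/
def IsCopy {k n : ℕ} (H : Matrix (Fin k) (Fin k) Bool) (A : Matrix (Fin n) (Fin n) Bool)
    (r c : Fin k → Fin n) : Prop :=
  StrictMono r ∧ StrictMono c ∧ ∀ i j, A (r i) (c j) = H i j

/-- The number of ordered copies of `H` in `A`. -/
noncomputable def numCopies {k n : ℕ} (H : Matrix (Fin k) (Fin k) Bool)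
    (A : Matrix (Fin n) (Fin n) Bool) : ℕ :=
  Nat.card {p : (Fin k → Fin n) × (Fin k → Fin n) // IsCopy H A p.1 p.2}

/-- `A` is `H`-free. -/
def IsFree {k n : ℕ} (H : Matrix (Fin k) (Fin k) Bool) (A : Matrix (Fin n) (Fin n) Bool) : Prop :=
  numCopies H A = 0

/-- The number of entries in which two matrices differ. -/
def diffCount {n : ℕ} (A B : Matrix (Fin n) (Fin n) Bool) : ℕ :=
  (Finset.univ.filter fun p : Fin n × Fin n => A p.1 p.2 ≠ B p.1 p.2).card

/-- The distance of `A` from `H`-freeness. -/
noncomputable def distFree {k n : ℕ} (H : Matrix (Fin k) (Fin k) Bool)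
    (A : Matrix (Fin n) (Fin n) Bool) : ℝ :=
  ((sInf {d : ℕ | ∃ B : Matrix (Fin n) (Fin n) Bool, IsFree H B ∧ diffCount A B = d} : ℕ) : ℝ) /
    (n : ℝ) ^ 2

/-- The `6 × 6` pattern of the counterexample. -/
def H6 : Matrix (Fin 6) (Fin 6) Bool :=
  !![true,  true,  true,  false, false, false;
     true,  true,  true,  true,  false, true;
     true,  true,  true,  false, true,  false;
     false, true,  false, false, false, false;
     false, false, true,  false, true,  false;
     false, true,  false, false, false, false]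

end Vale.Agent.P037
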