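import Vale.Agent.P037.Count

/-! The polynomial ordered matrix-removal conjecture fails. -/

open Filter Topology

namespace Vale.Agent.P037

/-- The constant `false` matrix is `H6`-free. -/
theorem isFree_false (n : ℕ) : IsFree H6 (fun _ _ => false : Matrix (Fin n) (Fin n) Bool) := by
  unfold IsFree numCopies
  rw [Nat.card_eq_zero]
  left
  refine ⟨fun p => ?_⟩
  have := p.2.2.2 0 0
  simp [H6] at this

theorem distFree_ge {n : ℕ} {A : Matrix (Fin n) (Fin n) Bool} {m : ℕ}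
    (h : ∀ B, IsFree H6 B → m ≤ diffCount A B) : (m : ℝ) / (n : ℝ) ^ 2 ≤ distFree H6 A := by
  unfold distFree
  have hne : {d : ℕ | ∃ B : Matrix (Fin n) (Fin n) Bool, IsFree H6 B ∧ diffCount A B = d}.Nonempty :=
    ⟨_, _, isFree_false n, rfl⟩
  obtain ⟨B, hB, hd⟩ := Nat.sInf_mem hne
  have h1 := h B hB
  rw [hd] at h1
  gcongr

theorem dist_AA {W : ℕ} (hW : 1 ≤ W) :
    (1 / (18 * ((W : ℝ) + 1)) ^ 2 : ℝ) ≤ distFree H6 (AA W) := by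
  refine le_trans (le_of_eq ?_) (distFree_ge (far hW))
  push_cast
  have : (2 : ℝ) ^ W ≠ 0 := by positivity
  have : (W : ℝ) + 1 ≠ 0 := by positivity
  field_simp
  ring

theorem num_AA {W : ℕ} (hW : 1 ≤ W) :
    (numCopies H6 (AA W) : ℝ) ≤ (1 / 2) ^ W * ((9 * 2 ^ W * (2 * W + 2) : ℕ) : ℝ) ^ 12 := by
  have h := numCopies_le hW
  have h' : (numCopies H6 (AA W) : ℝ) ≤
      (((9 * 2 ^ W * (2 * W + 2)) ^ 11 * (2 * W + 2) : ℕ) : ℝ) := by exact_mod_cast h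
  refine h'.trans ?_
  push_cast
  have e : (1 / 2 : ℝ) ^ W * (9 * 2 ^ W * (2 * W + 2)) ^ 12 =
      (9 * 2 ^ W * (2 * W + 2)) ^ 11 * (2 * W + 2) * 9 := by
    have : (1 / 2 : ℝ) ^ W * 2 ^ W = 1 := by rw [← mul_pow]; norm_num
    calc (1 / 2 : ℝ) ^ W * (9 * 2 ^ W * (2 * W + 2)) ^ 12
        = ((1 / 2 : ℝ) ^ W * 2 ^ W) * ((9 * 2 ^ W * (2 * W + 2)) ^ 11 * (2 * W + 2) * 9) := by ring
      _ = _ := by rw [this, one_mul]
  rw [e]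
  have : (0 : ℝ) ≤ (9 * 2 ^ W * (2 * W + 2)) ^ 11 * (2 * W + 2) := by positivity
  linarith

/-- Exponential decay beats polynomial decay. -/
theorem exists_W {c C : ℝ} (hc : 0 < c) :
    ∃ W : ℕ, 1 ≤ W ∧ (1 / 2 : ℝ) ^ W < c * (1 / (18 * ((W : ℝ) + 1)) ^ 2) ^ C := by
  obtain ⟨m, hm⟩ := exists_nat_ge C
  have h1 : Tendsto (fun n : ℕ => (n : ℝ) ^ (2 * m) * (1 / 2 : ℝ) ^ n) atTop (𝓝 0) :=
    tendsto_pow_const_mul_const_pow_of_abs_lt_one _ (by rw [abs_of_pos] <;> norm_num)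
  have h2 : Tendsto (fun n : ℕ => 2 * 18 ^ (2 * m) * ((n : ℝ) ^ (2 * m) * (1 / 2 : ℝ) ^ n)) atTop
      (𝓝 0) := by
    simpa using h1.const_mul (2 * 18 ^ (2 * m))
  obtain ⟨N, hN⟩ := (h2.eventually (gt_mem_nhds hc)).exists_forall_of_atTop
  refine ⟨N + 1, by omega, ?_⟩
  have h3 := hN (N + 1 + 1) (by omega)
  set x : ℝ := 18 * (((N + 1 : ℕ) : ℝ) + 1) with hx
  have hx1 : 1 ≤ x := by
    rw [hx]; push_cast
    have : (0 : ℝ) ≤ N := by positivity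
    linarith
  have hx0 : 0 < x := by linarith
  have h4 : (1 / x ^ 2) ^ m ≤ (1 / x ^ 2) ^ C := by
    rw [← Real.rpow_natCast]
    apply Real.rpow_le_rpow_of_exponent_ge (by positivity)
    · rw [div_le_one (by positivity)]
      exact one_le_pow₀ hx1
    · exact hm
  have h5 : (1 / 2 : ℝ) ^ (N + 1) < c * (1 / x ^ 2) ^ m := by
    have e : (1 / x ^ 2) ^ m = 1 / x ^ (2 * m) := by rw [one_div_pow, ← pow_mul]
    rw [e, mul_one_div, lt_div_iff₀ (by positivity)]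
    calc (1 / 2 : ℝ) ^ (N + 1) * x ^ (2 * m)
        = 2 * 18 ^ (2 * m) * (((N + 1 + 1 : ℕ) : ℝ) ^ (2 * m) * (1 / 2 : ℝ) ^ (N + 1 + 1)) := by
          rw [hx, mul_pow, pow_succ (1 / 2 : ℝ) (N + 1)]
          push_cast
          ring
      _ < c := h3
  calc (1 / 2 : ℝ) ^ (N + 1) < c * (1 / x ^ 2) ^ m := h5
    _ ≤ c * (1 / x ^ 2) ^ C := by gcongr

theorem main :
    (∀ W : ℕ, 1 ≤ W → ∃ n : ℕ, 1 ≤ n ∧ ∃ A : Matrix (Fin n) (Fin n) Bool,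
      1 / (18 * ((W : ℝ) + 1)) ^ 2 ≤ distFree H6 A ∧
      (numCopies H6 A : ℝ) ≤ (1 / 2) ^ W * (n : ℝ) ^ (2 * 6)) ∧
    ¬ ∃ c : ℝ, 0 < c ∧ ∃ C : ℝ, 0 < C ∧ ∀ n : ℕ, 1 ≤ n → ∀ ε : ℝ, 0 < ε → ε < 1 →
      ∀ A : Matrix (Fin n) (Fin n) Bool, ε ≤ distFree H6 A →
        c * ε ^ C * (n : ℝ) ^ (2 * 6) ≤ (numCopies H6 A : ℝ) := by
  have h1 : ∀ W : ℕ, 1 ≤ W → ∃ n : ℕ, 1 ≤ n ∧ ∃ A : Matrix (Fin n) (Fin n) Bool,
      1 / (18 * ((W : ℝ) + 1)) ^ 2 ≤ distFree H6 A ∧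
      (numCopies H6 A : ℝ) ≤ (1 / 2) ^ W * (n : ℝ) ^ (2 * 6) := by
    intro W hW
    refine ⟨9 * 2 ^ W * (2 * W + 2), ?_, AA W, dist_AA hW, num_AA hW⟩
    exact Nat.one_le_iff_ne_zero.2 (by positivity)
  refine ⟨h1, ?_⟩
  rintro ⟨c, hc, C, hC, h⟩
  obtain ⟨W, hW, hlt⟩ := exists_W (C := C) hc
  obtain ⟨n, hn, A, hd, hN⟩ := h1 W hW
  have hW0 : (0 : ℝ) ≤ W := by positivity
  have h2 := h n hn (1 / (18 * ((W : ℝ) + 1)) ^ 2) (by positivity)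
    (by
      rw [div_lt_one (by positivity)]
      nlinarith) A hd
  have hn0 : (0 : ℝ) < (n : ℝ) ^ (2 * 6) := by
    have : (0 : ℝ) < n := by exact_mod_cast hn
    positivity
  have h3 := h2.trans hN
  have h4 := le_of_mul_le_mul_right h3 hn0
  linarith

end Vale.Agent.P037
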