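import Vale.Agent.P037.Defs

/-! The matrix of the counterexample and the position of its copies. -/

namespace Vale.Agent.P037

/-- Type of a class code. -/
def ty (k : ℕ) : ℕ := (k + 1) / 2

/-- Type of the position `p` in a cell of the tree. -/
def tp (W p : ℕ) : ℕ := min (p + 1) (2 * W + 2 - p)

/-- Class code of the row (or column) number `u` of the copy (or cell) `z` in the group `g`. -/
def cl (W g z u : ℕ) : ℕ :=
  if g = 8 then 2 * W + 1
  else if g = 5 then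
    (if tp W u = W + 1 then 2 * W + 1 else 2 * tp W u - 1 + (z / 2 ^ (W - tp W u)) % 2)
  else if g = 4 ∨ g = 6 then 0
  else if g = 3 ∨ g = 7 then max u 1
  else u

/-- The entry is `1`. -/
def Ent (W g z k g' z' k' : ℕ) : Prop :=
  if g = 0 ∨ g' = 0 then g ≤ 2 ∧ g' ≤ 2
  else if g ≤ 2 ∧ g' ≤ 2 then (k = k' ∨ ty k = ty k' + 1 ∨ ty k' = ty k + 1)
  else if g ≤ 2 ∨ g' ≤ 2 then k = k'
  else (g ≠ 8 ∧ g' ≠ 8 ∧ ty k = ty k' ∧ 1 ≤ ty k ∧
    ¬ (g = 5 ∧ g' = 5 ∧ z / 2 ^ (W - ty k) = z' / 2 ^ (W - ty k)))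

def gr (W r : ℕ) : ℕ := r / (2 * W + 2) / 2 ^ W
def zz (W r : ℕ) : ℕ := r / (2 * W + 2) % 2 ^ W
def kk (W r : ℕ) : ℕ := cl W (gr W r) (zz W r) (r % (2 * W + 2))

/-- The entry `(r, c)` of the matrix is `1`. -/
def Ex (W r c : ℕ) : Prop := Ent W (gr W r) (zz W r) (kk W r) (gr W c) (zz W c) (kk W c)

theorem Ex_symm {W r c : ℕ} : Ex W r c ↔ Ex W c r := by
  unfold Ex Ent
  by_cases h1 : gr W r = 0 ∨ gr W c = 0
  · have h1' : gr W c = 0 ∨ gr W r = 0 := h1.symm
    simp only [h1, h1', if_true]; tauto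
  · have h1' : ¬ (gr W c = 0 ∨ gr W r = 0) := fun h => h1 h.symm
    simp only [h1, h1', if_false]
    by_cases h2 : gr W r ≤ 2 ∧ gr W c ≤ 2
    · have h2' : gr W c ≤ 2 ∧ gr W r ≤ 2 := h2.symm
      simp only [h2, if_true, and_self]
      constructor <;> rintro (h | h | h) <;> simp [h]
    · have h2' : ¬ (gr W c ≤ 2 ∧ gr W r ≤ 2) := fun h => h2 h.symm
      simp only [h2, h2', if_false]
      by_cases h3 : gr W r ≤ 2 ∨ gr W c ≤ 2
      · have h3' : gr W c ≤ 2 ∨ gr W r ≤ 2 := h3.symm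
        simp only [h3, h3', if_true]
        exact eq_comm
      · have h3' : ¬ (gr W c ≤ 2 ∨ gr W r ≤ 2) := fun h => h3 h.symm
        simp only [h3, h3', if_false]
        constructor
        · rintro ⟨a, b, c, d, e⟩
          refine ⟨b, a, c.symm, c ▸ d, fun h => e ⟨h.2.1, h.1, ?_⟩⟩
          rw [c]; exact h.2.2.symm
        · rintro ⟨a, b, c, d, e⟩
          refine ⟨b, a, c.symm, c ▸ d, fun h => e ⟨h.2.1, h.1, ?_⟩⟩
          rw [c]; exact h.2.2.symm

theorem gr_mono {W r s : ℕ} (h : r ≤ s) : gr W r ≤ gr W s :=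
  Nat.div_le_div_right (Nat.div_le_div_right h)

theorem zz_mono {W r s : ℕ} (h : r ≤ s) (hg : gr W r = gr W s) : zz W r ≤ zz W s := by
  have h1 : r / (2 * W + 2) ≤ s / (2 * W + 2) := Nat.div_le_div_right h
  have h2 := Nat.div_add_mod (r / (2 * W + 2)) (2 ^ W)
  have h3 := Nat.div_add_mod (s / (2 * W + 2)) (2 ^ W)
  unfold gr at hg
  unfold zz
  rw [hg] at h2
  omega

theorem zz_lt {W r : ℕ} : zz W r < 2 ^ W := Nat.mod_lt _ (by positivity)

/-- Copies of the pattern, with natural number indices. -/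
structure Cop (W : ℕ) (a b : Fin 6 → ℕ) : Prop where
  ma : Monotone a
  mb : Monotone b
  h : ∀ i j, Ex W (a i) (b j) ↔ H6 i j = true

theorem H6_symm (i j : Fin 6) : H6 i j = H6 j i := by
  fin_cases i <;> fin_cases j <;> rfl

theorem Cop.symm {W : ℕ} {a b : Fin 6 → ℕ} (h : Cop W a b) : Cop W b a where
  ma := h.mb
  mb := h.ma
  h := fun i j => by rw [Ex_symm, h.h, H6_symm]

end Vale.Agent.P037
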