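import Vale.Agent.P037.Matrix

/-! Every copy of `H6` in the matrix uses a row and a column of the same cell of the tree. -/

namespace Vale.Agent.P037

variable {W : ℕ}

theorem Ex_FT {r c : ℕ} (h : gr W r = 0) (h' : 3 ≤ gr W c) : ¬ Ex W r c := by
  unfold Ex Ent
  rw [if_pos (Or.inl h)]
  omega

theorem Ex_TF {r c : ℕ} (h : 3 ≤ gr W r) (h' : gr W c = 0) : ¬ Ex W r c := by
  rw [Ex_symm]; exact Ex_FT h' h

theorem Ex_FX {r c : ℕ} (h : gr W r = 0) (h' : gr W c ≤ 2) : Ex W r c := by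
  unfold Ex Ent
  rw [if_pos (Or.inl h)]
  omega

theorem Ex_XF {r c : ℕ} (h : gr W r ≤ 2) (h' : gr W c = 0) : Ex W r c := by
  rw [Ex_symm]; exact Ex_FX h' h

theorem Ex_XX {r c : ℕ} (h1 : 1 ≤ gr W r) (h2 : gr W r ≤ 2) (h3 : 1 ≤ gr W c) (h4 : gr W c ≤ 2) :
    Ex W r c ↔ (kk W r = kk W c ∨ ty (kk W r) = ty (kk W c) + 1 ∨
      ty (kk W c) = ty (kk W r) + 1) := by
  unfold Ex Ent
  rw [if_neg (by omega), if_pos ⟨h2, h4⟩]

theorem Ex_XT {r c : ℕ} (h1 : 1 ≤ gr W r) (h2 : gr W r ≤ 2) (h3 : 3 ≤ gr W c) :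
    Ex W r c ↔ kk W r = kk W c := by
  unfold Ex Ent
  rw [if_neg (by omega), if_neg (by omega), if_pos (by omega)]

theorem Ex_TX {r c : ℕ} (h3 : 3 ≤ gr W r) (h1 : 1 ≤ gr W c) (h2 : gr W c ≤ 2) :
    Ex W r c ↔ kk W r = kk W c := by
  rw [Ex_symm, Ex_XT h1 h2 h3, eq_comm]

theorem Ex_TT {r c : ℕ} (h1 : 3 ≤ gr W r) (h2 : 3 ≤ gr W c) :
    Ex W r c ↔ (gr W r ≠ 8 ∧ gr W c ≠ 8 ∧ ty (kk W r) = ty (kk W c) ∧ 1 ≤ ty (kk W r) ∧
    ¬ (gr W r = 5 ∧ gr W c = 5 ∧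
      zz W r / 2 ^ (W - ty (kk W r)) = zz W c / 2 ^ (W - ty (kk W r)))) := by
  unfold Ex Ent
  rw [if_neg (by omega), if_neg (by omega), if_neg (by omega)]

/-- The prefix of length `t` of the cell is monotone. -/
theorem pre_between {r s u : ℕ} {e x : ℕ} (h1 : r ≤ s) (h2 : s ≤ u) (hr : gr W r = 5)
    (hu : gr W u = 5) (hx : zz W r / e = x) (hx' : zz W u / e = x) :
    gr W s = 5 ∧ zz W s / e = x := by
  have g1 := gr_mono (W := W) h1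
  have g2 := gr_mono (W := W) h2
  have g3 : gr W s = 5 := by omega
  refine ⟨g3, ?_⟩
  have z1 := zz_mono (W := W) h1 (by omega)
  have z2 := zz_mono (W := W) h2 (by omega)
  have d1 : zz W r / e ≤ zz W s / e := Nat.div_le_div_right z1
  have d2 : zz W s / e ≤ zz W u / e := Nat.div_le_div_right z2
  omega

section
variable {a b : Fin 6 → ℕ} (h : Cop W a b)
include h

theorem Cop.t {i j : Fin 6} (hh : H6 i j = true) : Ex W (a i) (b j) := (h.h i j).2 hh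

theorem Cop.f {i j : Fin 6} (hh : H6 i j = false) : ¬ Ex W (a i) (b j) := by
  intro h'
  have := (h.h i j).1 h'
  rw [hh] at this
  exact absurd this (by simp)

theorem Cop.ga {i j : Fin 6} (hij : i ≤ j) : gr W (a i) ≤ gr W (a j) :=
  gr_mono (h.ma hij)

theorem Cop.gb {i j : Fin 6} (hij : i ≤ j) : gr W (b i) ≤ gr W (b j) :=
  gr_mono (h.mb hij)

theorem step1 : gr W (a 2) ≤ 2 := by
  by_contra hc
  have h2 : 3 ≤ gr W (a 2) := by omega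
  have h3 : 3 ≤ gr W (a 3) := h2.trans (h.ga (by decide))
  have h4 : 3 ≤ gr W (a 4) := h2.trans (h.ga (by decide))
  have h5 : 3 ≤ gr W (a 5) := h2.trans (h.ga (by decide))
  have b0 : gr W (b 0) ≠ 0 := fun hb => Ex_TF h2 hb (h.t (i := 2) (j := 0) rfl)
  have b01 : gr W (b 0) ≤ gr W (b 1) := h.gb (by decide)
  have b12 : gr W (b 1) ≤ gr W (b 2) := h.gb (by decide)
  have b1 : 3 ≤ gr W (b 1) := by
    by_contra hb1
    have hb0 : gr W (b 0) ≤ 2 := by omega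
    have e20 := (Ex_TX h2 (by omega) hb0).1 (h.t (i := 2) (j := 0) rfl)
    have e30 := mt (Ex_TX h3 (by omega) hb0).2 (h.f (i := 3) (j := 0) rfl)
    have e21 := (Ex_TX h2 (by omega) (by omega)).1 (h.t (i := 2) (j := 1) rfl)
    have e31 := (Ex_TX h3 (by omega) (by omega)).1 (h.t (i := 3) (j := 1) rfl)
    exact e30 (e31.trans (e21.symm.trans e20))
  have b2 : 3 ≤ gr W (b 2) := by omega
  have e21 := (Ex_TT h2 b1).1 (h.t (i := 2) (j := 1) rfl)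
  have e22 := (Ex_TT h2 b2).1 (h.t (i := 2) (j := 2) rfl)
  have e31 := (Ex_TT h3 b1).1 (h.t (i := 3) (j := 1) rfl)
  have e51 := (Ex_TT h5 b1).1 (h.t (i := 5) (j := 1) rfl)
  have e42 := (Ex_TT h4 b2).1 (h.t (i := 4) (j := 2) rfl)
  have e32 := mt (Ex_TT h3 b2).2 (h.f (i := 3) (j := 2) rfl)
  have e52 := mt (Ex_TT h5 b2).2 (h.f (i := 5) (j := 2) rfl)
  have t3 : ty (kk W (a 3)) = ty (kk W (b 2)) := by
    rw [e31.2.2.1, ← e21.2.2.1, e22.2.2.1]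
  have t5 : ty (kk W (a 5)) = ty (kk W (b 2)) := by
    rw [e51.2.2.1, ← e21.2.2.1, e22.2.2.1]
  have t4 : ty (kk W (a 4)) = ty (kk W (b 2)) := e42.2.2.1
  have f3 : gr W (a 3) = 5 ∧ gr W (b 2) = 5 ∧
      zz W (a 3) / 2 ^ (W - ty (kk W (a 3))) = zz W (b 2) / 2 ^ (W - ty (kk W (a 3))) := by
    by_contra hcc
    exact e32 ⟨e31.1, e22.2.1, t3, e31.2.2.2.1, hcc⟩
  have f5 : gr W (a 5) = 5 ∧ gr W (b 2) = 5 ∧
      zz W (a 5) / 2 ^ (W - ty (kk W (a 5))) = zz W (b 2) / 2 ^ (W - ty (kk W (a 5))) := by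
    by_contra hcc
    exact e52 ⟨e51.1, e22.2.1, t5, e51.2.2.2.1, hcc⟩
  rw [t3] at f3
  rw [t5] at f5
  have f4 := pre_between (W := W) (h.ma (show (3 : Fin 6) ≤ 4 by decide))
    (h.ma (show (4 : Fin 6) ≤ 5 by decide)) f3.1 f5.1 f3.2.2 f5.2.2
  apply e42.2.2.2.2
  rw [t4]
  exact ⟨f4.1, f3.2.1, f4.2⟩

end

/-- Two classes are related. -/
def Rel (x y : ℕ) : Prop := x = y ∨ ty x = ty y + 1 ∨ ty y = ty x + 1

theorem coinc {x0 x1 y1 y2 : ℕ} (hx01 : x1 ≠ x0) (hy1 : y1 ≠ x0) (hy2 : y2 ≠ x0) (hy12 : y1 ≠ y2)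
    (h10 : Rel x1 x0) (h01 : Rel x0 y1) (h02 : Rel x0 y2) (h11 : Rel x1 y1) (h12 : Rel x1 y2) :
    False := by
  unfold Rel ty at *
  have e1 : x1 = y1 := by omega
  have e2 : x1 = y2 := by omega
  omega

theorem noco {x0 x1 y0 y1 y2 : ℕ} (hx : ty x0 ≠ ty x1)
    (hy01 : y0 ≠ y1) (hy02 : y0 ≠ y2) (hy12 : y1 ≠ y2)
    (c00 : x0 ≠ y0) (c01 : x0 ≠ y1) (c02 : x0 ≠ y2) (c10 : x1 ≠ y0) (c11 : x1 ≠ y1) (c12 : x1 ≠ y2)
    (h00 : Rel x0 y0) (h01 : Rel x0 y1) (h02 : Rel x0 y2)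
    (h10 : Rel x1 y0) (h11 : Rel x1 y1) (h12 : Rel x1 y2) : False := by
  unfold Rel ty at *
  have e1 : 2 * ((y0 + 1) / 2) = (x0 + 1) / 2 + (x1 + 1) / 2 := by omega
  have e2 : 2 * ((y1 + 1) / 2) = (x0 + 1) / 2 + (x1 + 1) / 2 := by omega
  have e3 : 2 * ((y2 + 1) / 2) = (x0 + 1) / 2 + (x1 + 1) / 2 := by omega
  omega

/-- Three distinct classes cannot all be related to three distinct classes. -/
theorem no33 {x0 x1 x2 y0 y1 y2 : ℕ} (hx01 : x0 ≠ x1) (hx02 : x0 ≠ x2) (hx12 : x1 ≠ x2)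
    (hy01 : y0 ≠ y1) (hy02 : y0 ≠ y2) (hy12 : y1 ≠ y2)
    (h00 : Rel x0 y0) (h01 : Rel x0 y1) (h02 : Rel x0 y2)
    (h10 : Rel x1 y0) (h11 : Rel x1 y1) (h12 : Rel x1 y2)
    (h20 : Rel x2 y0) (h21 : Rel x2 y1) (h22 : Rel x2 y2) : False := by
  have c00 : x0 ≠ y0 := by
    rintro rfl; exact coinc hx01.symm hy01.symm hy02.symm hy12 h10 h01 h02 h11 h12
  have c01 : x0 ≠ y1 := by
    rintro rfl; exact coinc hx01.symm hy01 hy12.symm hy02 h11 h00 h02 h10 h12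
  have c02 : x0 ≠ y2 := by
    rintro rfl; exact coinc hx01.symm hy02 hy12 hy01 h12 h00 h01 h10 h11
  have c10 : x1 ≠ y0 := by
    rintro rfl; exact coinc hx01 hy01.symm hy02.symm hy12 h00 h11 h12 h01 h02
  have c11 : x1 ≠ y1 := by
    rintro rfl; exact coinc hx01 hy01 hy12.symm hy02 h01 h10 h12 h00 h02
  have c12 : x1 ≠ y2 := by
    rintro rfl; exact coinc hx01 hy02 hy12 hy01 h02 h10 h11 h00 h01
  have c20 : x2 ≠ y0 := by
    rintro rfl; exact coinc hx02 hy01.symm hy02.symm hy12 h00 h21 h22 h01 h02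
  have c21 : x2 ≠ y1 := by
    rintro rfl; exact coinc hx02 hy01 hy12.symm hy02 h01 h20 h22 h00 h02
  have c22 : x2 ≠ y2 := by
    rintro rfl; exact coinc hx02 hy02 hy12 hy01 h02 h20 h21 h00 h01
  by_cases t01 : ty x0 = ty x1
  · have t02 : ty x0 ≠ ty x2 := by
      unfold ty at *; omega
    exact noco t02 hy01 hy02 hy12 c00 c01 c02 c20 c21 c22 h00 h01 h02 h20 h21 h22
  · exact noco t01 hy01 hy02 hy12 c00 c01 c02 c10 c11 c12 h00 h01 h02 h10 h11 h12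

end Vale.Agent.P037
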