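import Vale.Agent.P037.Struct

/-! Every copy of `H6` in the matrix uses a row and a column of the same cell: steps 2 and 3. -/

namespace Vale.Agent.P037

variable {W : ℕ} {a b : Fin 6 → ℕ} (h : Cop W a b)
include h

theorem step2 : 3 ≤ gr W (a 3) := by
  by_contra hc
  have ha3 : gr W (a 3) ≤ 2 := by omega
  have A01 : gr W (a 0) ≤ gr W (a 1) := h.ga (by decide)
  have A12 : gr W (a 1) ≤ gr W (a 2) := h.ga (by decide)
  have A23 : gr W (a 2) ≤ gr W (a 3) := h.ga (by decide)
  have A34 : gr W (a 3) ≤ gr W (a 4) := h.ga (by decide)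
  have A45 : gr W (a 4) ≤ gr W (a 5) := h.ga (by decide)
  have B01 : gr W (b 0) ≤ gr W (b 1) := h.gb (by decide)
  have B12 : gr W (b 1) ≤ gr W (b 2) := h.gb (by decide)
  have B23 : gr W (b 2) ≤ gr W (b 3) := h.gb (by decide)
  have B34 : gr W (b 3) ≤ gr W (b 4) := h.gb (by decide)
  have B45 : gr W (b 4) ≤ gr W (b 5) := h.gb (by decide)
  have hb2 : gr W (b 2) ≤ 2 := step1 h.symm
  -- `a 3` and `b 0` are contexts
  have ha3' : 1 ≤ gr W (a 3) := by
    by_contra h0
    exact h.f (i := 3) (j := 0) rfl (Ex_FX (by omega) (by omega))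
  have hb0 : 1 ≤ gr W (b 0) := by
    by_contra h0
    exact h.f (i := 3) (j := 0) rfl (Ex_XF (by omega) (by omega))
  by_cases hb3 : gr W (b 3) ≤ 2
  · have ha0 : 1 ≤ gr W (a 0) := by
      by_contra h0
      exact h.f (i := 0) (j := 3) rfl (Ex_FX (by omega) (by omega))
    have r00 := (Ex_XX ha0 (by omega) hb0 (by omega)).1 (h.t (i := 0) (j := 0) rfl)
    have r01 := (Ex_XX ha0 (by omega) (by omega) (by omega)).1 (h.t (i := 0) (j := 1) rfl)
    have r02 := (Ex_XX ha0 (by omega) (by omega) (by omega)).1 (h.t (i := 0) (j := 2) rfl)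
    have r10 := (Ex_XX (by omega) (by omega) hb0 (by omega)).1 (h.t (i := 1) (j := 0) rfl)
    have r11 := (Ex_XX (by omega) (by omega) (by omega) (by omega)).1 (h.t (i := 1) (j := 1) rfl)
    have r12 := (Ex_XX (by omega) (by omega) (by omega) (by omega)).1 (h.t (i := 1) (j := 2) rfl)
    have r20 := (Ex_XX (by omega) (by omega) hb0 (by omega)).1 (h.t (i := 2) (j := 0) rfl)
    have r21 := (Ex_XX (by omega) (by omega) (by omega) (by omega)).1 (h.t (i := 2) (j := 1) rfl)
    have r22 := (Ex_XX (by omega) (by omega) (by omega) (by omega)).1 (h.t (i := 2) (j := 2) rfl)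
    have e13 := (Ex_XX (by omega) (by omega) (by omega) (by omega)).1 (h.t (i := 1) (j := 3) rfl)
    have e03 := mt (Ex_XX (by omega) (by omega) (by omega) (by omega)).2 (h.f (i := 0) (j := 3) rfl)
    have e23 := mt (Ex_XX (by omega) (by omega) (by omega) (by omega)).2 (h.f (i := 2) (j := 3) rfl)
    have e31 := (Ex_XX (by omega) (by omega) (by omega) (by omega)).1 (h.t (i := 3) (j := 1) rfl)
    have e30 := mt (Ex_XX (by omega) (by omega) (by omega) (by omega)).2 (h.f (i := 3) (j := 0) rfl)
    have e32 := mt (Ex_XX (by omega) (by omega) (by omega) (by omega)).2 (h.f (i := 3) (j := 2) rfl)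
    have x01 : kk W (a 0) ≠ kk W (a 1) := fun e => e03 (by rw [e]; exact e13)
    have x12 : kk W (a 1) ≠ kk W (a 2) := fun e => e23 (by rw [← e]; exact e13)
    have y01 : kk W (b 0) ≠ kk W (b 1) := fun e => e30 (by rw [e]; exact e31)
    have y12 : kk W (b 1) ≠ kk W (b 2) := fun e => e32 (by rw [← e]; exact e31)
    have x02 : kk W (a 0) ≠ kk W (a 2) := by
      intro e
      by_cases hb4 : gr W (b 4) ≤ 2
      · have e24 := (Ex_XX (by omega) (by omega) (by omega) (by omega)).1 (h.t (i := 2) (j := 4) rfl)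
        have e04 := mt (Ex_XX (by omega) (by omega) (by omega) (by omega)).2
          (h.f (i := 0) (j := 4) rfl)
        exact e04 (by rw [e]; exact e24)
      · have e24 := (Ex_XT (by omega) (by omega) (by omega)).1 (h.t (i := 2) (j := 4) rfl)
        have e04 := mt (Ex_XT (by omega) (by omega) (by omega)).2 (h.f (i := 0) (j := 4) rfl)
        exact e04 (e.trans e24)
    have y02 : kk W (b 0) ≠ kk W (b 2) := by
      intro e
      by_cases ha4 : gr W (a 4) ≤ 2
      · have e42 := (Ex_XX (by omega) (by omega) (by omega) (by omega)).1 (h.t (i := 4) (j := 2) rfl)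
        have e40 := mt (Ex_XX (by omega) (by omega) (by omega) (by omega)).2
          (h.f (i := 4) (j := 0) rfl)
        exact e40 (by rw [e]; exact e42)
      · have e42 := (Ex_TX (by omega) (by omega) (by omega)).1 (h.t (i := 4) (j := 2) rfl)
        have e40 := mt (Ex_TX (by omega) (by omega) (by omega)).2 (h.f (i := 4) (j := 0) rfl)
        exact e40 (e42.trans e.symm)
    exact no33 x01 x02 x12 y01 y02 y12 r00 r01 r02 r10 r11 r12 r20 r21 r22
  · have hb3' : 3 ≤ gr W (b 3) := by omega
    have ha1 : 1 ≤ gr W (a 1) := by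
      by_contra h0
      exact Ex_FT (by omega) hb3' (h.t (i := 1) (j := 3) rfl)
    have e13 := (Ex_XT (by omega) (by omega) hb3').1 (h.t (i := 1) (j := 3) rfl)
    have e24 := (Ex_XT (by omega) (by omega) (by omega)).1 (h.t (i := 2) (j := 4) rfl)
    have e14 := mt (Ex_XT (by omega) (by omega) (by omega)).2 (h.f (i := 1) (j := 4) rfl)
    have r20 := (Ex_XX (by omega) (by omega) hb0 (by omega)).1 (h.t (i := 2) (j := 0) rfl)
    have r21 := (Ex_XX (by omega) (by omega) (by omega) (by omega)).1 (h.t (i := 2) (j := 1) rfl)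
    have r22 := (Ex_XX (by omega) (by omega) (by omega) (by omega)).1 (h.t (i := 2) (j := 2) rfl)
    have r10 := (Ex_XX (by omega) (by omega) hb0 (by omega)).1 (h.t (i := 1) (j := 0) rfl)
    have r11 := (Ex_XX (by omega) (by omega) (by omega) (by omega)).1 (h.t (i := 1) (j := 1) rfl)
    have r12 := (Ex_XX (by omega) (by omega) (by omega) (by omega)).1 (h.t (i := 1) (j := 2) rfl)
    have ha4 : 3 ≤ gr W (a 4) := by
      by_contra h0
      have e44 := (Ex_XT (by omega) (by omega) (by omega)).1 (h.t (i := 4) (j := 4) rfl)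
      have e40 := mt (Ex_XX (by omega) (by omega) (by omega) (by omega)).2 (h.f (i := 4) (j := 0) rfl)
      exact e40 (by rw [e44, ← e24]; exact r20)
    have e42 := (Ex_TX ha4 (by omega) (by omega)).1 (h.t (i := 4) (j := 2) rfl)
    have e44 := (Ex_TT ha4 (by omega)).1 (h.t (i := 4) (j := 4) rfl)
    have e51 := (Ex_TX (by omega) (by omega) (by omega)).1 (h.t (i := 5) (j := 1) rfl)
    have e52 := mt (Ex_TX (by omega) (by omega) (by omega)).2 (h.f (i := 5) (j := 2) rfl)
    have e50 := mt (Ex_TX (by omega) (by omega) (by omega)).2 (h.f (i := 5) (j := 0) rfl)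
    have e40 := mt (Ex_TX ha4 (by omega) (by omega)).2 (h.f (i := 4) (j := 0) rfl)
    have e44' := e44.2.2.1
    clear e44
    unfold ty at *
    have s1 : kk W (a 2) = kk W (b 2) := by omega
    have s2 : kk W (a 1) ≠ kk W (a 2) := by omega
    have s3 : kk W (b 1) ≠ kk W (b 2) := by omega
    have s4 : kk W (b 1) ≠ kk W (b 0) := by omega
    have s5 : kk W (b 0) ≠ kk W (b 2) := by omega
    clear e13 e24 e14 e42 e44' e51 e52 e50 e40 r22
    rw [s1] at r20 r21 s2
    have s6 : kk W (a 1) = kk W (b 0) := by omega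
    have s7 : kk W (a 1) = kk W (b 1) := by omega
    omega

end Vale.Agent.P037
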