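import Vale.Agent.P037.Struct2

/-! Every copy of `H6` in the matrix uses a row and a column of the same cell: conclusion. -/

namespace Vale.Agent.P037

variable {W : ℕ}

theorem kk4 {r : ℕ} (h : gr W r = 4) : kk W r = 0 := by
  unfold kk cl; rw [h]; norm_num

theorem kk6 {r : ℕ} (h : gr W r = 6) : kk W r = 0 := by
  unfold kk cl; rw [h]; norm_num

theorem kk3 {r : ℕ} (h : gr W r = 3) : 1 ≤ kk W r := by
  unfold kk cl; rw [h]; norm_num

theorem kk7 {r : ℕ} (h : gr W r = 7) : 1 ≤ kk W r := by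
  unfold kk cl; rw [h]; norm_num

theorem kk8 {r : ℕ} (h : gr W r = 8) : kk W r = 2 * W + 1 := by
  unfold kk cl; rw [h]; norm_num

theorem tp_bounds {p : ℕ} (hp : p < 2 * W + 2) : 1 ≤ tp W p ∧ tp W p ≤ W + 1 := by
  unfold tp; omega

theorem kk5 {r : ℕ} (h : gr W r = 5) :
    ∃ t, 1 ≤ t ∧ t ≤ W + 1 ∧ ty (kk W r) = t ∧ (t = W + 1 → kk W r = 2 * W + 1) ∧
      (t ≤ W → kk W r = 2 * t - 1 + (zz W r / 2 ^ (W - t)) % 2) := by
  have hb := tp_bounds (W := W) (p := r % (2 * W + 2)) (Nat.mod_lt _ (by omega))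
  refine ⟨tp W (r % (2 * W + 2)), hb.1, hb.2, ?_, ?_, ?_⟩
  · unfold kk cl ty; rw [h]
    norm_num
    split_ifs with h1
    · omega
    · have := Nat.mod_lt (zz W r / 2 ^ (W - tp W (r % (2 * W + 2)))) (show 0 < 2 by norm_num)
      omega
  · intro h1
    unfold kk cl; rw [h]; norm_num [h1]
  · intro h1
    unfold kk cl; rw [h]; norm_num
    intro h2; omega

theorem gr5_ge {r : ℕ} (h : gr W r = 5) : 1 ≤ kk W r := by
  obtain ⟨t, h1, h2, h3, -⟩ := kk5 h
  unfold ty at h3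
  omega

/-- Classes of rows of type `0` lie in the pads. -/
theorem gr_of_kk0 {r : ℕ} (h3 : 3 ≤ gr W r) (h8 : gr W r ≤ 8) (hk : kk W r = 0) :
    gr W r = 4 ∨ gr W r = 6 := by
  rcases (show gr W r = 3 ∨ gr W r = 4 ∨ gr W r = 5 ∨ gr W r = 6 ∨
    gr W r = 7 ∨ gr W r = 8 by omega) with g | g | g | g | g | g
  · have := kk3 g; omega
  · exact Or.inl g
  · have := gr5_ge g; omega
  · exact Or.inr g
  · have := kk7 g; omega
  · have := kk8 g; omega

theorem gr5_of_between {r s t : ℕ} (h1 : r ≤ s) (h2 : s ≤ t) (h3 : 3 ≤ gr W r)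
    (h8 : gr W t ≤ 8) (hr : kk W r = 0) (ht : kk W t = 0) (hs : kk W s ≠ 0) : gr W s = 5 := by
  have g1 := gr_mono (W := W) h1
  have g2 := gr_mono (W := W) h2
  have q1 : gr W s ≠ 4 := fun g => hs (kk4 g)
  have q2 : gr W s ≠ 6 := fun g => hs (kk6 g)
  rcases gr_of_kk0 h3 (by omega) hr with g | g <;>
  rcases gr_of_kk0 (by omega) h8 ht with g' | g' <;> omega

/-- Two tree rows of the same class of type `1` have the same first digit. -/
theorem pre_one {r c : ℕ} (hW : 1 ≤ W) (hr : gr W r = 5) (hc : gr W c = 5)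
    (hk : kk W c = kk W r) (ht : ty (kk W r) = 1) :
    zz W r / 2 ^ (W - 1) = zz W c / 2 ^ (W - 1) := by
  obtain ⟨t, -, -, hta, -, hkt⟩ := kk5 hr
  obtain ⟨t', -, -, htb, -, hkt'⟩ := kk5 hc
  rw [hk] at htb
  have et : t = 1 := by omega
  have et' : t' = 1 := by omega
  subst et et'
  have ka := hkt hW
  have kb := hkt' hW
  have p : 2 ^ W = 2 ^ (W - 1) * 2 := by
    rw [← pow_succ]; congr 1; omega
  have za : zz W r / 2 ^ (W - 1) < 2 :=
    Nat.div_lt_of_lt_mul (by rw [← p]; exact zz_lt)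
  have zb : zz W c / 2 ^ (W - 1) < 2 :=
    Nat.div_lt_of_lt_mul (by rw [← p]; exact zz_lt)
  generalize zz W r / 2 ^ (W - 1) = x at *
  generalize zz W c / 2 ^ (W - 1) = y at *
  omega

/-- Two tree rows of the same class with the same digits at an adjacent level. -/
theorem pre_adj {r c s : ℕ} (hr : gr W r = 5) (hc : gr W c = 5)
    (hk : kk W c = kk W r) (st : s = ty (kk W r) + 1 ∨ ty (kk W r) = s + 1)
    (hsW : s ≤ W) (dd : zz W r / 2 ^ (W - s) = zz W c / 2 ^ (W - s)) :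
    zz W r / 2 ^ (W - ty (kk W r)) = zz W c / 2 ^ (W - ty (kk W r)) := by
  obtain ⟨t, ht1, htW, hta, htt, hkt⟩ := kk5 hr
  obtain ⟨t', ht1', htW', htb, htt', hkt'⟩ := kk5 hc
  rw [hk] at htb htt' hkt'
  have e1 : t' = t := by omega
  subst e1
  rw [hta]
  rw [hta] at st
  rcases st with st | st
  · have hp : 2 ^ (W - t') = 2 ^ (W - s) * 2 := by
      rw [← pow_succ]; congr 1; omega
    rw [hp, ← Nat.div_div_eq_div_mul, ← Nat.div_div_eq_div_mul, dd]
  · by_cases htl : t' ≤ W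
    · have ka := hkt htl
      have kb := hkt' htl
      have hp : 2 ^ (W - s) = 2 ^ (W - t') * 2 := by
        rw [← pow_succ]; congr 1; omega
      rw [hp, ← Nat.div_div_eq_div_mul, ← Nat.div_div_eq_div_mul] at dd
      generalize zz W r / 2 ^ (W - t') = x at *
      generalize zz W c / 2 ^ (W - t') = y at *
      omega
    · have e2 : W - t' = 0 := by omega
      have e3 : W - s = 0 := by omega
      rw [e2]
      rw [e3] at dd
      exact dd

theorem same_block {r c : ℕ} (hg : gr W r = gr W c) (hz : zz W r = zz W c) :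
    r / (2 * W + 2) = c / (2 * W + 2) := by
  have q1 := Nat.div_add_mod (r / (2 * W + 2)) (2 ^ W)
  have q2 := Nat.div_add_mod (c / (2 * W + 2)) (2 ^ W)
  unfold gr at hg
  unfold zz at hz
  rw [hg, hz] at q1
  omega

/-- The classes of the last three rows and columns of a copy. -/
theorem classes {x1 x2 y1 y2 a3 a4 a5 b3 b4 b5 : ℕ} (e13 : x1 = b3) (e15 : x1 = b5)
    (e24 : x2 = b4) (e14 : x1 ≠ b4) (e31 : a3 = y1) (e51 : a5 = y1) (e42 : a4 = y2)
    (e41 : a4 ≠ y1) (tt : ty a4 = ty b4) (r11 : Rel x1 y1) (r12 : Rel x1 y2) (r21 : Rel x2 y1)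
    (r22 : Rel x2 y2) :
    b4 = a4 ∧ b3 = a3 ∧ b5 = a3 ∧ a5 = a3 ∧ (ty a3 = ty a4 + 1 ∨ ty a4 = ty a3 + 1) := by
  have s1 : x2 = y2 := by unfold Rel ty at *; omega
  have s3 : x1 ≠ y2 := by omega
  have s4 : x2 ≠ y1 := by omega
  have s2 : x1 = y1 := by
    rw [s1] at r21 s4
    clear r22 e13 e15 e24 e14 e31 e51 e42 e41 tt
    unfold Rel ty at *; omega
  refine ⟨by omega, by omega, by omega, by omega, ?_⟩
  rw [e31, ← s2, e42]
  rcases r12 with r | r | r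
  · exact absurd r s3
  · exact Or.inl r
  · exact Or.inr r

variable {a b : Fin 6 → ℕ} (h : Cop W a b)
include h

theorem step3a (hga : gr W (a 5) ≤ 8) (hgb : gr W (b 5) ≤ 8) :
    (3 ≤ gr W (a 3) ∧ 3 ≤ gr W (b 3) ∧ gr W (a 4) ≤ 7 ∧ gr W (b 4) ≤ 7) ∧
    (kk W (b 4) = kk W (a 4) ∧ kk W (b 3) = kk W (a 3) ∧ kk W (b 5) = kk W (a 3) ∧
      kk W (a 5) = kk W (a 3) ∧
      (ty (kk W (a 3)) = ty (kk W (a 4)) + 1 ∨ ty (kk W (a 4)) = ty (kk W (a 3)) + 1)) ∧
    1 ≤ ty (kk W (a 4)) ∧ ¬ (gr W (a 4) = 5 ∧ gr W (b 4) = 5 ∧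
      zz W (a 4) / 2 ^ (W - ty (kk W (a 4))) = zz W (b 4) / 2 ^ (W - ty (kk W (a 4)))) := by
  have A01 : gr W (a 0) ≤ gr W (a 1) := h.ga (by decide)
  have A12 : gr W (a 1) ≤ gr W (a 2) := h.ga (by decide)
  have A34 : gr W (a 3) ≤ gr W (a 4) := h.ga (by decide)
  have A45 : gr W (a 4) ≤ gr W (a 5) := h.ga (by decide)
  have B01 : gr W (b 0) ≤ gr W (b 1) := h.gb (by decide)
  have B12 : gr W (b 1) ≤ gr W (b 2) := h.gb (by decide)
  have B34 : gr W (b 3) ≤ gr W (b 4) := h.gb (by decide)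
  have B45 : gr W (b 4) ≤ gr W (b 5) := h.gb (by decide)
  have ha2 : gr W (a 2) ≤ 2 := step1 h
  have hb2 : gr W (b 2) ≤ 2 := step1 h.symm
  have ha3 : 3 ≤ gr W (a 3) := step2 h
  have hb3 : 3 ≤ gr W (b 3) := step2 h.symm
  have ha1 : 1 ≤ gr W (a 1) := by
    by_contra h0
    exact Ex_FT (by omega) hb3 (h.t (i := 1) (j := 3) rfl)
  have hb1 : 1 ≤ gr W (b 1) := by
    by_contra h0
    exact Ex_TF ha3 (by omega) (h.t (i := 3) (j := 1) rfl)
  have e44 := (Ex_TT (by omega) (by omega)).1 (h.t (i := 4) (j := 4) rfl)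
  refine ⟨⟨ha3, hb3, by omega, by omega⟩, ?_, e44.2.2.2.1, e44.2.2.2.2⟩
  have ha1' : gr W (a 1) ≤ 2 := by omega
  have hb1' : gr W (b 1) ≤ 2 := by omega
  have ha2' : 1 ≤ gr W (a 2) := by omega
  have hb2' : 1 ≤ gr W (b 2) := by omega
  have hb4 : 3 ≤ gr W (b 4) := by omega
  have hb5 : 3 ≤ gr W (b 5) := by omega
  have ha4 : 3 ≤ gr W (a 4) := by omega
  have ha5 : 3 ≤ gr W (a 5) := by omega
  exact classes ((Ex_XT ha1 ha1' hb3).1 (h.t (i := 1) (j := 3) rfl))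
    ((Ex_XT ha1 ha1' hb5).1 (h.t (i := 1) (j := 5) rfl))
    ((Ex_XT ha2' ha2 hb4).1 (h.t (i := 2) (j := 4) rfl))
    (mt (Ex_XT ha1 ha1' hb4).2 (h.f (i := 1) (j := 4) rfl))
    ((Ex_TX ha3 hb1 hb1').1 (h.t (i := 3) (j := 1) rfl))
    ((Ex_TX ha5 hb1 hb1').1 (h.t (i := 5) (j := 1) rfl))
    ((Ex_TX ha4 hb2' hb2).1 (h.t (i := 4) (j := 2) rfl))
    (mt (Ex_TX ha4 hb1 hb1').2 (h.f (i := 4) (j := 1) rfl))
    e44.2.2.1
    ((Ex_XX ha1 ha1' hb1 hb1').1 (h.t (i := 1) (j := 1) rfl))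
    ((Ex_XX ha1 ha1' hb2' hb2).1 (h.t (i := 1) (j := 2) rfl))
    ((Ex_XX ha2' ha2 hb1 hb1').1 (h.t (i := 2) (j := 1) rfl))
    ((Ex_XX ha2' ha2 hb2' hb2).1 (h.t (i := 2) (j := 2) rfl))

theorem step3 (hW : 1 ≤ W) (hga : gr W (a 5) ≤ 8) (hgb : gr W (b 5) ≤ 8) :
    a 3 / (2 * W + 2) = b 3 / (2 * W + 2) := by
  obtain ⟨⟨ha3, hb3, ha4, hb4⟩, ⟨u1, w3, w5, x5, st⟩, t1, e44⟩ := step3a h hga hgb
  have A34 : gr W (a 3) ≤ gr W (a 4) := h.ga (by decide)
  have A45 : gr W (a 4) ≤ gr W (a 5) := h.ga (by decide)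
  have B34 : gr W (b 3) ≤ gr W (b 4) := h.gb (by decide)
  have B45 : gr W (b 4) ≤ gr W (b 5) := h.gb (by decide)
  have m34 := h.ma (show (3 : Fin 6) ≤ 4 by decide)
  have m45 := h.ma (show (4 : Fin 6) ≤ 5 by decide)
  have n34 := h.mb (show (3 : Fin 6) ≤ 4 by decide)
  have n45 := h.mb (show (4 : Fin 6) ≤ 5 by decide)
  have f33 := mt (Ex_TT ha3 hb3).2 (h.f (i := 3) (j := 3) rfl)
  have f35 := mt (Ex_TT ha3 (by omega)).2 (h.f (i := 3) (j := 5) rfl)
  have f53 := mt (Ex_TT (by omega) hb3).2 (h.f (i := 5) (j := 3) rfl)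
  by_cases hs0 : ty (kk W (a 3)) = 0
  · -- type 0
    exfalso
    have k3 : kk W (a 3) = 0 := by unfold ty at hs0; omega
    have k4 : kk W (a 4) ≠ 0 := by unfold ty at t1; omega
    have ga4 : gr W (a 4) = 5 := gr5_of_between m34 m45 ha3 hga k3 (by rw [x5, k3]) k4
    have gb4 : gr W (b 4) = 5 :=
      gr5_of_between n34 n45 hb3 hgb (by rw [w3, k3]) (by rw [w5, k3]) (by rw [u1]; exact k4)
    have tt1 : ty (kk W (a 4)) = 1 := by omega
    apply e44
    refine ⟨ga4, gb4, ?_⟩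
    rw [tt1]
    exact pre_one hW ga4 gb4 u1 tt1
  · have hs1 : 1 ≤ ty (kk W (a 3)) := by omega
    have c33 : gr W (a 3) = 5 ∧ gr W (b 3) = 5 ∧
        zz W (a 3) / 2 ^ (W - ty (kk W (a 3))) = zz W (b 3) / 2 ^ (W - ty (kk W (a 3))) := by
      by_contra hcc
      exact f33 ⟨by omega, by omega, by rw [w3], hs1, hcc⟩
    by_cases hsW : W < ty (kk W (a 3))
    · have hz : zz W (a 3) = zz W (b 3) := by
        have := c33.2.2
        rw [Nat.sub_eq_zero_of_le (by omega)] at this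
        simpa using this
      exact same_block (c33.1.trans c33.2.1.symm) hz
    · exfalso
      have hty : ty (2 * W + 1) = W + 1 := by unfold ty; omega
      have ga5 : gr W (a 5) ≠ 8 := by
        intro g
        have e8 := kk8 g
        rw [x5] at e8
        rw [e8, hty] at hsW
        omega
      have gb5 : gr W (b 5) ≠ 8 := by
        intro g
        have e8 := kk8 g
        rw [w5] at e8
        rw [e8, hty] at hsW
        omega
      have c35 : gr W (a 3) = 5 ∧ gr W (b 5) = 5 ∧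
          zz W (a 3) / 2 ^ (W - ty (kk W (a 3))) = zz W (b 5) / 2 ^ (W - ty (kk W (a 3))) := by
        by_contra hcc
        exact f35 ⟨by omega, gb5, by rw [w5], hs1, hcc⟩
      have c53 : gr W (a 5) = 5 ∧ gr W (b 3) = 5 ∧
          zz W (a 5) / 2 ^ (W - ty (kk W (a 3))) = zz W (b 3) / 2 ^ (W - ty (kk W (a 3))) := by
        by_contra hcc
        exact f53 ⟨ga5, by omega, by rw [x5, w3], by rw [x5]; exact hs1, by rw [x5]; exact hcc⟩
      have da := pre_between (W := W) m34 m45 c33.1 c53.1 rfl (c53.2.2.trans c33.2.2.symm)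
      have db := pre_between (W := W) n34 n45 c33.2.1 c35.2.1 c33.2.2.symm c35.2.2.symm
      exact e44 ⟨da.1, db.1, pre_adj da.1 db.1 u1 st (by omega) (da.2.trans db.2.symm)⟩

end Vale.Agent.P037
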